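import Crest.Agent.Rec.Defs

/-!
# S0112, piece P1: API for `LineCalculus` (bounded functional calculus), waves, spectral supports
-/

set_option autoImplicit false

namespace Crest.Agent.Rec

open Crest.OpAlg MeasureTheory
open scoped BoundedContinuousFunction InnerProductSpace

variable {H : Type*} [NormedAddCommGroup H] [InnerProductSpace ℂ H] [CompleteSpace H]

section calculus

variable (D : LineCalculus H)

/-- The C⋆-algebra structure on `ℝ →ᵇ ℂ` (assembled from Mathlib's instances), used only to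
apply `NonUnitalStarAlgHom.norm_apply_le`. -/
@[instance_reducible]
noncomputable def calc_bcfCStar : CStarAlgebra (ℝ →ᵇ ℂ) := { }

/-- A ⋆-homomorphism of C⋆-algebras is contractive. -/
theorem norm_apply_le (f : ℝ →ᵇ ℂ) : ‖D.apply f‖ ≤ ‖f‖ := by
  let _ : CStarAlgebra (ℝ →ᵇ ℂ) := calc_bcfCStar
  exact NonUnitalStarAlgHom.norm_apply_le D.apply f

theorem norm_apply_apply_le (f : ℝ →ᵇ ℂ) (x : H) : ‖D.apply f x‖ ≤ ‖f‖ * ‖x‖ :=
  ((D.apply f).le_opNorm x).trans
    (mul_le_mul_of_nonneg_right (norm_apply_le D f) (norm_nonneg x))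

theorem apply_apply_mul (f g : ℝ →ᵇ ℂ) (x : H) :
    D.apply f (D.apply g x) = D.apply (f * g) x := by
  rw [map_mul]
  rfl

theorem apply_apply_comm (f g : ℝ →ᵇ ℂ) (x : H) :
    D.apply f (D.apply g x) = D.apply g (D.apply f x) := by
  rw [apply_apply_mul, apply_apply_mul, mul_comm]

/-- adjoint of `f(D)` is `(star f)(D)`. -/
theorem inner_apply_left (f : ℝ →ᵇ ℂ) (x y : H) :
    ⟪D.apply f x, y⟫_ℂ = ⟪x, D.apply (star f) y⟫_ℂ := by
  rw [map_star, ContinuousLinearMap.star_eq_adjoint, ContinuousLinearMap.adjoint_inner_right]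

theorem character_apply (t u : ℝ) :
    LineCalculus.character t u = Complex.exp (Complex.I * ((t * u : ℝ) : ℂ)) := rfl

theorem character_zero : LineCalculus.character 0 = 1 := by
  ext u
  rw [character_apply, BoundedContinuousFunction.coe_one, Pi.one_apply]
  simp

theorem character_add (t t' : ℝ) :
    LineCalculus.character (t + t') = LineCalculus.character t * LineCalculus.character t' := by
  ext u
  rw [BoundedContinuousFunction.mul_apply, character_apply, character_apply, character_apply,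
    ← Complex.exp_add]
  congr 1
  push_cast
  ring

theorem star_character (t : ℝ) :
    star (LineCalculus.character t) = LineCalculus.character (-t) := by
  ext u
  rw [BoundedContinuousFunction.star_apply, character_apply, character_apply, Complex.star_def,
    ← Complex.exp_conj]
  congr 1
  rw [map_mul, Complex.conj_I, Complex.conj_ofReal]
  push_cast
  ring

theorem norm_character_le (t : ℝ) : ‖LineCalculus.character t‖ ≤ 1 := by
  rw [BoundedContinuousFunction.norm_le zero_le_one]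
  intro u
  rw [character_apply, Complex.norm_exp]
  simp

theorem wave_zero : D.wave 0 = 1 := by
  show D.apply (LineCalculus.character 0) = 1
  rw [character_zero, map_one]

theorem wave_add (t t' : ℝ) : D.wave (t + t') = D.wave t * D.wave t' := by
  show D.apply (LineCalculus.character (t + t')) =
    D.apply (LineCalculus.character t) * D.apply (LineCalculus.character t')
  rw [character_add, map_mul]

theorem wave_wave (t t' : ℝ) (x : H) : D.wave t (D.wave t' x) = D.wave (t + t') x := by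
  rw [wave_add]
  rfl

theorem wave_neg_wave (t : ℝ) (x : H) : D.wave (-t) (D.wave t x) = x := by
  rw [wave_wave, neg_add_cancel, wave_zero]
  rfl

theorem wave_wave_neg (t : ℝ) (x : H) : D.wave t (D.wave (-t) x) = x := by
  rw [wave_wave, add_neg_cancel, wave_zero]
  rfl

theorem star_wave (t : ℝ) : star (D.wave t) = D.wave (-t) := by
  show star (D.apply (LineCalculus.character t)) = D.apply (LineCalculus.character (-t))
  rw [← map_star, star_character]

theorem inner_wave_left (t : ℝ) (x y : H) : ⟪D.wave t x, y⟫_ℂ = ⟪x, D.wave (-t) y⟫_ℂ := by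
  rw [← star_wave, ContinuousLinearMap.star_eq_adjoint, ContinuousLinearMap.adjoint_inner_right]

theorem inner_wave_right (t : ℝ) (x y : H) : ⟪x, D.wave t y⟫_ℂ = ⟪D.wave (-t) x, y⟫_ℂ := by
  rw [inner_wave_left, neg_neg]

theorem inner_wave_wave (t : ℝ) (x y : H) : ⟪D.wave t x, D.wave t y⟫_ℂ = ⟪x, y⟫_ℂ := by
  rw [inner_wave_left, wave_neg_wave]

theorem norm_wave_apply (t : ℝ) (x : H) : ‖D.wave t x‖ = ‖x‖ := by
  have h1 : ‖D.wave t x‖ ^ 2 = ‖x‖ ^ 2 := by
    rw [← inner_self_eq_norm_sq (𝕜 := ℂ) (D.wave t x), ← inner_self_eq_norm_sq (𝕜 := ℂ) x,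
      inner_wave_wave]
  exact (pow_left_inj₀ (norm_nonneg _) (norm_nonneg _) two_ne_zero).1 h1

theorem norm_wave_le (t : ℝ) : ‖D.wave t‖ ≤ 1 :=
  ContinuousLinearMap.opNorm_le_bound _ zero_le_one
    (fun x => by rw [norm_wave_apply, one_mul])

theorem wave_apply_comm (t : ℝ) (f : ℝ →ᵇ ℂ) (x : H) :
    D.wave t (D.apply f x) = D.apply f (D.wave t x) :=
  apply_apply_comm D (LineCalculus.character t) f x

private theorem calcb_exp_sub_le (a b : ℝ) :
    ‖Complex.exp (Complex.I * ((a : ℝ) : ℂ)) - Complex.exp (Complex.I * ((b : ℝ) : ℂ))‖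
      ≤ |a - b| := by
  have h1 : Complex.exp (Complex.I * ((a : ℝ) : ℂ)) - Complex.exp (Complex.I * ((b : ℝ) : ℂ))
      = Complex.exp (Complex.I * ((b : ℝ) : ℂ)) *
        (Complex.exp (Complex.I * (((a - b : ℝ)) : ℂ)) - 1) := by
    rw [mul_sub, mul_one, ← Complex.exp_add]
    congr 2
    push_cast
    ring
  rw [h1, norm_mul]
  have h2 : ‖Complex.exp (Complex.I * ((b : ℝ) : ℂ))‖ = 1 := by
    rw [Complex.norm_exp]
    simp
  rw [h2, one_mul]
  exact (Real.norm_exp_I_mul_ofReal_sub_one_le (x := a - b)).trans_eq (Real.norm_eq_abs _)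

private theorem calcb_exists_radius (f : ℝ →ᵇ ℂ) (hf : HasCompactSupport (f : ℝ → ℂ)) :
    ∃ R : ℝ, 0 < R ∧ ∀ u : ℝ, f u ≠ 0 → |u| ≤ R := by
  obtain ⟨R, hR⟩ := (hf.isCompact.isBounded).subset_closedBall (0 : ℝ)
  refine ⟨max R 1, lt_of_lt_of_le one_pos (le_max_right _ _), fun u hu => ?_⟩
  have h1 : u ∈ tsupport (f : ℝ → ℂ) := subset_tsupport _ hu
  have h2 := hR h1
  rw [Metric.mem_closedBall, Real.dist_eq, sub_zero] at h2
  exact h2.trans (le_max_left _ _)

/-- For compactly supported `f`, `t ↦ e^{itu} f(u)` is continuous in sup norm. -/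
theorem continuous_character_mul (f : ℝ →ᵇ ℂ) (hf : HasCompactSupport (f : ℝ → ℂ)) :
    Continuous fun t : ℝ => LineCalculus.character t * f := by
  obtain ⟨R, hR0, hR⟩ := calcb_exists_radius f hf
  have hlip : ∀ t t' : ℝ, dist (LineCalculus.character t * f) (LineCalculus.character t' * f)
      ≤ (R * ‖f‖) * dist t t' := by
    intro t t'
    have hC : 0 ≤ (R * ‖f‖) * dist t t' :=
      mul_nonneg (mul_nonneg hR0.le (norm_nonneg _)) dist_nonneg
    rw [BoundedContinuousFunction.dist_le hC]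
    intro u
    rw [BoundedContinuousFunction.mul_apply, BoundedContinuousFunction.mul_apply, dist_eq_norm,
      ← sub_mul, norm_mul, character_apply, character_apply]
    by_cases hu : f u = 0
    · rw [hu, norm_zero, mul_zero]
      exact hC
    · have h1 := calcb_exp_sub_le (t * u) (t' * u)
      have h2 : |t * u - t' * u| ≤ R * dist t t' := by
        rw [← sub_mul, abs_mul, Real.dist_eq, mul_comm]
        exact mul_le_mul_of_nonneg_right (hR u hu) (abs_nonneg _)
      have h3 : ‖f u‖ ≤ ‖f‖ := BoundedContinuousFunction.norm_coe_le_norm f u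
      calc ‖Complex.exp (Complex.I * ((t * u : ℝ) : ℂ)) -
              Complex.exp (Complex.I * ((t' * u : ℝ) : ℂ))‖ * ‖f u‖
          ≤ (R * dist t t') * ‖f‖ :=
            mul_le_mul (h1.trans h2) h3 (norm_nonneg _) (mul_nonneg hR0.le dist_nonneg)
        _ = (R * ‖f‖) * dist t t' := by ring
  have hK : 0 ≤ R * ‖f‖ := mul_nonneg hR0.le (norm_nonneg _)
  exact (LipschitzWith.of_dist_le_mul (K := ⟨R * ‖f‖, hK⟩) (fun t t' => hlip t t')).continuous

/-- Approximate unit: compactly supported cut-offs of norm `≤ 1` approximate every vector. -/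
private theorem calcb_hasCompactSupport_trap (r : ℝ) (hr : 0 < r) :
    HasCompactSupport ((trapBCF 0 r : ℝ →ᵇ ℂ) : ℝ → ℂ) := by
  refine HasCompactSupport.intro (isCompact_closedBall (0 : ℝ) (2 * r)) (fun u hu => ?_)
  rw [Metric.mem_closedBall, Real.dist_eq, not_le] at hu
  rw [trapBCF_apply, trapFun_eq_zero hr hu.le, Complex.ofReal_zero]

theorem exists_cutoff_approx (x : H) {ε : ℝ} (hε : 0 < ε) :
    ∃ f : ℝ →ᵇ ℂ, HasCompactSupport (f : ℝ → ℂ) ∧ ‖f‖ ≤ 1 ∧ ‖D.apply f x - x‖ < ε := by
  obtain ⟨f₀, hf₀, hx⟩ := D.window x (ε / 2) (half_pos hε)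
  obtain ⟨R, hR0, hR⟩ := calcb_exists_radius f₀ hf₀
  refine ⟨trapBCF 0 R, calcb_hasCompactSupport_trap R hR0, norm_trapBCF_le 0 R, ?_⟩
  have hmul : trapBCF 0 R * f₀ = f₀ := by
    ext u
    rw [BoundedContinuousFunction.mul_apply, trapBCF_apply]
    by_cases hu : f₀ u = 0
    · rw [hu, mul_zero]
    · have h1 : |u - 0| ≤ R := by rw [sub_zero]; exact hR u hu
      rw [trapFun_eq_one hR0 h1, Complex.ofReal_one, one_mul]
  have hdec : D.apply (trapBCF 0 R) x - x
      = D.apply (trapBCF 0 R) (x - D.apply f₀ x) + (D.apply f₀ x - x) := by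
    rw [map_sub, apply_apply_mul, hmul]
    abel
  have h1 : ‖D.apply (trapBCF 0 R) (x - D.apply f₀ x)‖ ≤ ‖x - D.apply f₀ x‖ := by
    have h := norm_apply_apply_le D (trapBCF 0 R) (x - D.apply f₀ x)
    have h' : ‖trapBCF 0 R‖ * ‖x - D.apply f₀ x‖ ≤ 1 * ‖x - D.apply f₀ x‖ :=
      mul_le_mul_of_nonneg_right (norm_trapBCF_le 0 R) (norm_nonneg _)
    rw [one_mul] at h'
    exact h.trans h'
  have h2 : ‖x - D.apply f₀ x‖ < ε / 2 := by rw [norm_sub_rev]; exact hx
  calc ‖D.apply (trapBCF 0 R) x - x‖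
      = ‖D.apply (trapBCF 0 R) (x - D.apply f₀ x) + (D.apply f₀ x - x)‖ := by rw [hdec]
    _ ≤ ‖D.apply (trapBCF 0 R) (x - D.apply f₀ x)‖ + ‖D.apply f₀ x - x‖ := norm_add_le _ _
    _ < ε / 2 + ε / 2 := add_lt_add_of_le_of_lt (h1.trans h2.le) hx
    _ = ε := add_halves ε

/-- The vectors `f(D) x` with `f` compactly supported are dense. -/
theorem dense_compact_range :
    Dense {y : H | ∃ (f : ℝ →ᵇ ℂ) (x : H), HasCompactSupport (f : ℝ → ℂ) ∧ y = D.apply f x} := by
  rw [Metric.dense_iff]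
  intro x r hr
  obtain ⟨f, hf, hx⟩ := D.window x r hr
  refine ⟨D.apply f x, ?_, f, x, hf, rfl⟩
  rw [Metric.mem_ball, dist_eq_norm]
  exact hx

/-- `f ↦ f(D) z` as a continuous linear map. -/
noncomputable def calc_applyCLM (z : H) : (ℝ →ᵇ ℂ) →L[ℂ] H :=
  LinearMap.mkContinuous
    { toFun := fun f => D.apply f z
      map_add' := fun f g => by rw [map_add]; rfl
      map_smul' := fun c f => by rw [map_smul]; rfl }
    ‖z‖ (fun f => by rw [mul_comm]; exact norm_apply_apply_le D f z)

theorem calc_applyCLM_apply (z : H) (f : ℝ →ᵇ ℂ) : calc_applyCLM D z f = D.apply f z := rfl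

/-- Strong continuity of the unitary group. -/
theorem continuous_wave (x : H) : Continuous fun t : ℝ => D.wave t x := by
  rw [continuous_iff_continuousAt]
  intro t₀
  rw [Metric.continuousAt_iff]
  intro ε hε
  obtain ⟨y, hy, hxy⟩ := Metric.mem_closure_iff.mp (dense_compact_range D x) (ε / 3)
    (by positivity)
  obtain ⟨f, x', hf, rfl⟩ := hy
  have hcy : Continuous fun t : ℝ => D.wave t (D.apply f x') := by
    have h1 : (fun t : ℝ => D.wave t (D.apply f x')) =
        fun t => calc_applyCLM D x' (LineCalculus.character t * f) := by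
      funext t
      rw [calc_applyCLM_apply, ← apply_apply_mul]
      rfl
    rw [h1]
    exact (calc_applyCLM D x').continuous.comp (continuous_character_mul f hf)
  obtain ⟨δ, hδ, hδ'⟩ := Metric.continuousAt_iff.mp (hcy.continuousAt (x := t₀)) (ε / 3)
    (by positivity)
  refine ⟨δ, hδ, fun t ht => ?_⟩
  have h1 := hδ' ht
  rw [dist_eq_norm] at h1 hxy ⊢
  have h2 : D.wave t x - D.wave t₀ x =
      D.wave t (x - D.apply f x') + (D.wave t (D.apply f x') - D.wave t₀ (D.apply f x')) -
        D.wave t₀ (x - D.apply f x') := by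
    rw [map_sub, map_sub]
    abel
  rw [h2]
  calc ‖D.wave t (x - D.apply f x') + (D.wave t (D.apply f x') - D.wave t₀ (D.apply f x')) -
        D.wave t₀ (x - D.apply f x')‖
      ≤ ‖D.wave t (x - D.apply f x') +
          (D.wave t (D.apply f x') - D.wave t₀ (D.apply f x'))‖ +
          ‖D.wave t₀ (x - D.apply f x')‖ := norm_sub_le _ _
    _ ≤ ‖D.wave t (x - D.apply f x')‖ +
          ‖D.wave t (D.apply f x') - D.wave t₀ (D.apply f x')‖ +
          ‖D.wave t₀ (x - D.apply f x')‖ := add_le_add_left (norm_add_le _ _) _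
    _ = ‖x - D.apply f x'‖ + ‖D.wave t (D.apply f x') - D.wave t₀ (D.apply f x')‖ +
          ‖x - D.apply f x'‖ := by rw [norm_wave_apply, norm_wave_apply]
    _ < ε := by linarith

/-- Joint strong continuity (the group is uniformly bounded). -/
theorem continuous_wave_comp {X : Type*} [TopologicalSpace X] {τ : X → ℝ} {x : X → H}
    (hτ : Continuous τ) (hx : Continuous x) : Continuous fun p : X => D.wave (τ p) (x p) := by
  rw [continuous_iff_continuousAt]
  intro p₀
  have h1 : Continuous fun p : X => D.wave (τ p) (x p₀) := (continuous_wave D (x p₀)).comp hτ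
  have h2 : Filter.Tendsto
      (fun p : X => ‖x p - x p₀‖ + ‖D.wave (τ p) (x p₀) - D.wave (τ p₀) (x p₀)‖)
      (nhds p₀) (nhds 0) := by
    have hc : Continuous
        (fun p : X => ‖x p - x p₀‖ + ‖D.wave (τ p) (x p₀) - D.wave (τ p₀) (x p₀)‖) :=
      ((hx.sub continuous_const).norm).add ((h1.sub continuous_const).norm)
    refine hc.tendsto' p₀ 0 ?_
    show ‖x p₀ - x p₀‖ + ‖D.wave (τ p₀) (x p₀) - D.wave (τ p₀) (x p₀)‖ = 0
    rw [sub_self, sub_self, norm_zero, add_zero]
  refine tendsto_iff_norm_sub_tendsto_zero.mpr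
    (squeeze_zero (fun _ => norm_nonneg _) (fun p => ?_) h2)
  have h3 : D.wave (τ p) (x p) - D.wave (τ p₀) (x p₀) =
      D.wave (τ p) (x p - x p₀) + (D.wave (τ p) (x p₀) - D.wave (τ p₀) (x p₀)) := by
    rw [map_sub]
    abel
  rw [h3]
  calc ‖D.wave (τ p) (x p - x p₀) + (D.wave (τ p) (x p₀) - D.wave (τ p₀) (x p₀))‖
      ≤ ‖D.wave (τ p) (x p - x p₀)‖ + ‖D.wave (τ p) (x p₀) - D.wave (τ p₀) (x p₀)‖ :=
        norm_add_le _ _
    _ = ‖x p - x p₀‖ + ‖D.wave (τ p) (x p₀) - D.wave (τ p₀) (x p₀)‖ := by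
        rw [norm_wave_apply]

/-! ### Spectral supports -/

theorem supportedIn_zero (K : Set ℝ) : D.SupportedIn K (0 : H) :=
  fun f _ => map_zero (D.apply f)

theorem supportedIn_add {K : Set ℝ} {x y : H} (hx : D.SupportedIn K x) (hy : D.SupportedIn K y) :
    D.SupportedIn K (x + y) := by
  intro f hf
  rw [map_add, hx f hf, hy f hf, add_zero]

theorem supportedIn_neg {K : Set ℝ} {x : H} (hx : D.SupportedIn K x) :
    D.SupportedIn K (-x) := by
  intro f hf
  rw [map_neg, hx f hf, neg_zero]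

theorem supportedIn_sub {K : Set ℝ} {x y : H} (hx : D.SupportedIn K x) (hy : D.SupportedIn K y) :
    D.SupportedIn K (x - y) := by
  intro f hf
  rw [map_sub, hx f hf, hy f hf, sub_zero]

theorem supportedIn_smul {K : Set ℝ} {x : H} (c : ℂ) (hx : D.SupportedIn K x) :
    D.SupportedIn K (c • x) := by
  intro f hf
  rw [map_smul, hx f hf, smul_zero]

theorem supportedIn_mono {K K' : Set ℝ} (hKK : K ⊆ K') {x : H} (hx : D.SupportedIn K x) :
    D.SupportedIn K' x :=
  fun f hf => hx f (fun u hu => hf u (hKK hu))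

theorem supportedIn_apply {K : Set ℝ} {x : H} (hx : D.SupportedIn K x) (f : ℝ →ᵇ ℂ) :
    D.SupportedIn K (D.apply f x) := by
  intro g hg
  rw [apply_apply_comm, hx g hg, map_zero]

theorem supportedIn_wave {K : Set ℝ} {x : H} (hx : D.SupportedIn K x) (t : ℝ) :
    D.SupportedIn K (D.wave t x) :=
  supportedIn_apply D hx (LineCalculus.character t)

/-- Two functions that agree on the support act in the same way. -/
theorem apply_eq_of_eqOn {K : Set ℝ} {x : H} (hx : D.SupportedIn K x) {f g : ℝ →ᵇ ℂ}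
    (hfg : ∀ u ∈ K, f u = g u) : D.apply f x = D.apply g x := by
  have h := hx (f - g) (fun u hu => by
    rw [BoundedContinuousFunction.sub_apply, hfg u hu, sub_self])
  rw [map_sub, sub_apply, sub_eq_zero] at h
  exact h

theorem apply_eq_self_of_eq_one {K : Set ℝ} {x : H} (hx : D.SupportedIn K x) {f : ℝ →ᵇ ℂ}
    (hf : ∀ u ∈ K, f u = 1) : D.apply f x = x := by
  have h := apply_eq_of_eqOn D hx (f := f) (g := 1) (fun u hu => by
    rw [hf u hu, BoundedContinuousFunction.coe_one, Pi.one_apply])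
  rw [h, map_one]
  rfl

/-- If `f` vanishes off `K` then `f(D) x` is supported in `K`. -/
theorem supportedIn_apply_of_vanish {K : Set ℝ} {f : ℝ →ᵇ ℂ} (hf : ∀ u, u ∉ K → f u = 0)
    (x : H) : D.SupportedIn K (D.apply f x) := by
  intro g hg
  have h0 : g * f = 0 := by
    ext u
    rw [BoundedContinuousFunction.mul_apply, BoundedContinuousFunction.coe_zero, Pi.zero_apply]
    by_cases hu : u ∈ K
    · rw [hg u hu, zero_mul]
    · rw [hf u hu, mul_zero]
  rw [apply_apply_mul, h0, map_zero]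
  rfl

end calculus

/-! ### The flow -/

section flow

variable (S : ModularDatum H)

theorem flow_apply (t : ℝ) (a : H →L[ℂ] H) (y : H) :
    S.flow t a y = S.D.wave t (a (S.D.wave (-t) y)) := rfl

theorem flow_mem_M (t : ℝ) {a : H →L[ℂ] H} (ha : a ∈ S.M) : S.flow t a ∈ S.M :=
  S.flow_mem t a ha

theorem star_flow (t : ℝ) (a : H →L[ℂ] H) : star (S.flow t a) = S.flow t (star a) := by
  unfold ModularDatum.flow
  rw [star_mul, star_mul, star_wave, star_wave, neg_neg, mul_assoc]

theorem flow_mul (t : ℝ) (a b : H →L[ℂ] H) : S.flow t (a * b) = S.flow t a * S.flow t b := by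
  have h1 : S.D.wave (-t) * S.D.wave t = 1 := by
    rw [← wave_add, neg_add_cancel, wave_zero]
  unfold ModularDatum.flow
  calc S.D.wave t * (a * b) * S.D.wave (-t)
      = S.D.wave t * a * 1 * b * S.D.wave (-t) := by rw [mul_one, mul_assoc (S.D.wave t) a b]
    _ = S.D.wave t * a * S.D.wave (-t) * (S.D.wave t * b * S.D.wave (-t)) := by
        rw [← h1]
        simp only [mul_assoc]

theorem flow_flow (t t' : ℝ) (a : H →L[ℂ] H) : S.flow t (S.flow t' a) = S.flow (t + t') a := by
  unfold ModularDatum.flow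
  rw [wave_add, neg_add_rev, wave_add]
  simp only [mul_assoc]

theorem norm_flow_le (t : ℝ) (a : H →L[ℂ] H) : ‖S.flow t a‖ ≤ ‖a‖ := by
  unfold ModularDatum.flow
  have h1 := norm_wave_le S.D t
  have h2 := norm_wave_le S.D (-t)
  calc ‖S.D.wave t * a * S.D.wave (-t)‖
      ≤ ‖S.D.wave t * a‖ * ‖S.D.wave (-t)‖ := norm_mul_le _ _
    _ ≤ ‖S.D.wave t‖ * ‖a‖ * ‖S.D.wave (-t)‖ :=
        mul_le_mul_of_nonneg_right (norm_mul_le _ _) (norm_nonneg _)
    _ ≤ 1 * ‖a‖ * 1 :=
        mul_le_mul (mul_le_mul_of_nonneg_right h1 (norm_nonneg _)) h2 (norm_nonneg _)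
          (mul_nonneg zero_le_one (norm_nonneg _))
    _ = ‖a‖ := by rw [one_mul, mul_one]

theorem inner_flow (t : ℝ) (a : H →L[ℂ] H) (x y : H) :
    ⟪x, S.flow t a y⟫_ℂ = ⟪S.D.wave (-t) x, a (S.D.wave (-t) y)⟫_ℂ := by
  rw [flow_apply, inner_wave_right]

theorem continuous_flow_apply (a : H →L[ℂ] H) (y : H) :
    Continuous fun t : ℝ => S.flow t a y :=
  continuous_wave_comp S.D continuous_id
    (a.continuous.comp ((continuous_wave S.D y).comp continuous_neg))

end flow

end Crest.Agent.Rec
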