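import Mathlib
import Crest.Prelude.Def_ModularData

/-!
# S0112 (bounded recovery for ergodic modular data): shared definitions

Notation used in the comments of all `Rec/*.lean` files: `ξ = S.vac`, `W t = S.D.wave t`,
`σ_t a = S.flow t a = W t * a * W (-t)`, `f(D) = S.D.apply f`, `φ a = ⟪ξ, a ξ⟫`.
-/

set_option autoImplicit false

namespace Crest.Agent.Rec

open Crest.OpAlg MeasureTheory
open scoped BoundedContinuousFunction InnerProductSpace

variable {H : Type*} [NormedAddCommGroup H] [InnerProductSpace ℂ H] [CompleteSpace H]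

/-- The quadratic form of the hypothesis: `qT ω D T y = mean_t ‖T (W t y)‖²`. -/
noncomputable def qT (ω : Ultrafilter ℕ) (D : LineCalculus H) (T : H →L[ℂ] H) (y : H) : ℝ :=
  ultraMean ω (fun t : ℝ => ‖T (D.wave t y)‖ ^ 2)

/-- The trapezoid: `1` on `[s - r, s + r]`, `0` outside `(s - 2r, s + 2r)`, values in `[0,1]`. -/
noncomputable def trapFun (s r : ℝ) (u : ℝ) : ℝ := max 0 (min 1 (2 - |u - s| / r))

theorem trapFun_continuous (s r : ℝ) : Continuous (trapFun s r) := by
  unfold trapFun
  fun_prop

theorem trapFun_nonneg (s r u : ℝ) : 0 ≤ trapFun s r u := le_max_left _ _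

theorem trapFun_le_one (s r u : ℝ) : trapFun s r u ≤ 1 :=
  max_le zero_le_one (min_le_left _ _)

theorem trapFun_eq_one {s r u : ℝ} (hr : 0 < r) (hu : |u - s| ≤ r) : trapFun s r u = 1 := by
  unfold trapFun
  have h1 : |u - s| / r ≤ 1 := by rw [div_le_one hr]; exact hu
  rw [min_eq_left (by linarith), max_eq_right zero_le_one]

theorem trapFun_eq_zero {s r u : ℝ} (hr : 0 < r) (hu : 2 * r ≤ |u - s|) : trapFun s r u = 0 := by
  unfold trapFun
  have h1 : 2 ≤ |u - s| / r := by rw [le_div_iff₀ hr]; exact hu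
  rw [min_eq_right (by linarith), max_eq_left (by linarith)]

/-- The trapezoid as a bounded continuous complex function. -/
noncomputable def trapBCF (s r : ℝ) : ℝ →ᵇ ℂ :=
  BoundedContinuousFunction.ofNormedAddCommGroup (fun u : ℝ => ((trapFun s r u : ℝ) : ℂ))
    (Complex.continuous_ofReal.comp (trapFun_continuous s r)) 1
    (fun u => by
      rw [Complex.norm_real, Real.norm_eq_abs, abs_of_nonneg (trapFun_nonneg s r u)]
      exact trapFun_le_one s r u)

@[simp] theorem trapBCF_apply (s r u : ℝ) : trapBCF s r u = ((trapFun s r u : ℝ) : ℂ) := rfl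

theorem norm_trapBCF_le (s r : ℝ) : ‖trapBCF s r‖ ≤ 1 := by
  rw [BoundedContinuousFunction.norm_le zero_le_one]
  intro u
  rw [trapBCF_apply, Complex.norm_real, Real.norm_eq_abs, abs_of_nonneg (trapFun_nonneg s r u)]
  exact trapFun_le_one s r u

end Crest.Agent.Rec
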