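import Crest.Agent.Rec.Calc

/-!
# S0112, piece P5b: the KMS bound (F2)

If `x ∈ M` and `x ξ` has spectral support in `K ⊆ (-∞, β]`, then `‖x⋆ ξ‖² ≤ e^β ‖x ξ‖²`.

`HalfExp (x ξ) (J (x⋆ ξ))` by `tomita`.  For a compactly supported cut-off `f` with `‖f‖ ≤ 1`,
`f(D) (J x⋆ξ) = (f e^{u/2})(D) (x ξ) = (f * min (e^{u/2}) (e^{β/2}))(D) (x ξ)`, of norm
`≤ e^{β/2} ‖x ξ‖`; let `f(D) → 1` (`exists_cutoff_approx`).
-/

set_option autoImplicit false

namespace Crest.Agent.Rec

open Crest.OpAlg MeasureTheory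
open scoped BoundedContinuousFunction InnerProductSpace

variable {H : Type*} [NormedAddCommGroup H] [InnerProductSpace ℂ H] [CompleteSpace H]

namespace Kms

/-- `u ↦ min (e^{u/2}) (e^{β/2})` as a bounded continuous complex function. -/
noncomputable def expHalfMin (β : ℝ) : ℝ →ᵇ ℂ :=
  BoundedContinuousFunction.ofNormedAddCommGroup
    (fun u : ℝ => ((min (Real.exp (u / 2)) (Real.exp (β / 2)) : ℝ) : ℂ))
    (by fun_prop) (Real.exp (β / 2))
    (fun u => by
      rw [Complex.norm_real, Real.norm_eq_abs,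
        abs_of_nonneg (le_min (Real.exp_pos _).le (Real.exp_pos _).le)]
      exact min_le_right _ _)

theorem expHalfMin_apply (β u : ℝ) :
    expHalfMin β u = ((min (Real.exp (u / 2)) (Real.exp (β / 2)) : ℝ) : ℂ) := rfl

theorem expHalfMin_of_le {β u : ℝ} (hu : u ≤ β) :
    expHalfMin β u = ((Real.exp (u / 2) : ℝ) : ℂ) := by
  rw [expHalfMin_apply, min_eq_left (Real.exp_le_exp.mpr (by linarith))]

theorem norm_expHalfMin_le (β : ℝ) : ‖expHalfMin β‖ ≤ Real.exp (β / 2) := by
  rw [BoundedContinuousFunction.norm_le (Real.exp_pos _).le]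
  intro u
  rw [expHalfMin_apply, Complex.norm_real, Real.norm_eq_abs,
    abs_of_nonneg (le_min (Real.exp_pos _).le (Real.exp_pos _).le)]
  exact min_le_right _ _

/-- A compactly supported function vanishes above some level. -/
theorem exists_bound_of_compactSupport (f : ℝ →ᵇ ℂ) (hf : HasCompactSupport (f : ℝ → ℂ)) :
    ∃ R : ℝ, ∀ u : ℝ, R < u → f u = 0 := by
  obtain ⟨R, hR⟩ := hf.isCompact.bddAbove
  refine ⟨R, fun u hu => ?_⟩
  apply image_eq_zero_of_notMem_tsupport
  intro hmem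
  exact absurd (hR hmem) (not_le.mpr hu)

/-- (F2) KMS bound for spectrally localised elements. -/
theorem kms_bound' (S : ModularDatum H) {x : H →L[ℂ] H} (hx : x ∈ S.M) {β : ℝ} {K : Set ℝ}
    (hK : K ⊆ Set.Iic β) (hsupp : S.D.SupportedIn K (x S.vac)) :
    ‖star x S.vac‖ ^ 2 ≤ Real.exp β * ‖x S.vac‖ ^ 2 := by
  -- the Tomita relation
  have hmem : ((x S.vac, star x S.vac) : H × H) ∈
      closure (Set.range fun a : S.M => ((a : H →L[ℂ] H) S.vac, star (a : H →L[ℂ] H) S.vac)) :=
    subset_closure ⟨⟨x, hx⟩, rfl⟩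
  rw [S.tomita] at hmem
  have hHE : S.D.HalfExp (x S.vac) (S.J (star x S.vac)) := hmem
  -- the key estimate for a cut-off
  have hkey : ∀ f : ℝ →ᵇ ℂ, HasCompactSupport (f : ℝ → ℂ) → ‖f‖ ≤ 1 →
      ‖S.D.apply f (S.J (star x S.vac))‖ ≤ Real.exp (β / 2) * ‖x S.vac‖ := by
    intro f hf hf1
    obtain ⟨R, hR⟩ := exists_bound_of_compactSupport f hf
    have h1 : S.D.apply f (S.J (star x S.vac)) = S.D.apply (f * expHalfMin R) (x S.vac) := by
      apply hHE f (f * expHalfMin R)
      intro u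
      rw [BoundedContinuousFunction.mul_apply]
      rcases le_or_gt u R with hu | hu
      · rw [expHalfMin_of_le hu]
      · rw [hR u hu, zero_mul, zero_mul]
    have h2 : S.D.apply (f * expHalfMin R) (x S.vac) =
        S.D.apply (f * expHalfMin β) (x S.vac) := by
      apply apply_eq_of_eqOn S.D hsupp
      intro u hu
      have huβ : u ≤ β := hK hu
      rw [BoundedContinuousFunction.mul_apply, BoundedContinuousFunction.mul_apply,
        expHalfMin_of_le huβ]
      rcases le_or_gt u R with hu' | hu'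
      · rw [expHalfMin_of_le hu']
      · rw [hR u hu', zero_mul, zero_mul]
    rw [h1, h2]
    refine (norm_apply_apply_le S.D _ _).trans ?_
    refine mul_le_mul_of_nonneg_right ?_ (norm_nonneg _)
    calc ‖f * expHalfMin β‖ ≤ ‖f‖ * ‖expHalfMin β‖ := norm_mul_le _ _
      _ ≤ 1 * Real.exp (β / 2) :=
          mul_le_mul hf1 (norm_expHalfMin_le β) (norm_nonneg _) zero_le_one
      _ = Real.exp (β / 2) := one_mul _
  -- let the cut-off tend to the identity
  have hJ : ‖S.J (star x S.vac)‖ ≤ Real.exp (β / 2) * ‖x S.vac‖ := by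
    refine le_of_forall_pos_le_add (fun ε hε => ?_)
    obtain ⟨f, hf, hf1, hfε⟩ := exists_cutoff_approx S.D (S.J (star x S.vac)) hε
    have h3 := hkey f hf hf1
    have h4 : ‖S.J (star x S.vac)‖ ≤
        ‖S.D.apply f (S.J (star x S.vac))‖ + ‖S.D.apply f (S.J (star x S.vac)) -
          S.J (star x S.vac)‖ := by
      have := norm_sub_le (S.D.apply f (S.J (star x S.vac)))
        (S.D.apply f (S.J (star x S.vac)) - S.J (star x S.vac))
      rwa [sub_sub_cancel] at this
    linarith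
  rw [S.J.norm_map] at hJ
  have h5 : (Real.exp (β / 2)) ^ 2 = Real.exp β := by
    rw [← Real.exp_nat_mul]
    congr 1
    push_cast
    ring
  calc ‖star x S.vac‖ ^ 2 ≤ (Real.exp (β / 2) * ‖x S.vac‖) ^ 2 :=
        pow_le_pow_left₀ (norm_nonneg _) hJ 2
    _ = Real.exp β * ‖x S.vac‖ ^ 2 := by rw [mul_pow, h5]

end Kms

end Crest.Agent.Rec
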