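import Crest.Agent.Rec.Calc
import Crest.Agent.Rec.Kms

/-!
# S0112, piece P5: the two consequences of the `tomita` field

(F1) `f(D) ξ = f(0) ξ`, hence `W(t) ξ = ξ` and `σ_t(a) ξ = W(t) a ξ`.
(F2) KMS bound: if `x ∈ M` and `x ξ` has spectral support in `K ⊆ (-∞, β]`, then
     `‖x⋆ ξ‖² ≤ e^β ‖x ξ‖²`.

Proof of (F1).  (A) The closed set `{p | ⟪p.2, ξ⟫ = ⟪ξ, p.1⟫}` contains all `(aξ, a⋆ξ)`, hence
the closure, hence (by `tomita`) every `p` with `HalfExp p.1 (J p.2)`.
(B) For `k` compactly supported and `z : H`, with `k₂ u := k u * exp (u/2)` (a bounded continuous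
function), `HalfExp (k(D) z) (k₂(D) z)` holds, so `p = (k(D) z, J (k₂(D) z))` is in the set
(`J (J _) = _`); by (A), `⟪J (k₂(D) z), ξ⟫ = ⟪ξ, k(D) z⟫`, i.e. (`J` antiunitary involution:
`⟪J a, b⟫ = ⟪J b, a⟫`) `⟪J ξ, k₂(D) z⟫ = ⟪ξ, k(D) z⟫` for all `z`, i.e.
`(star k₂)(D) (J ξ) = (star k)(D) ξ`; as `k` is arbitrary: `k₂(D) (J ξ) = k(D) ξ`.
(C) `HalfExp ξ (J ξ)` (the pair `(1ξ, 1⋆ξ)`) with `f = k₂`, `g u = k u * exp u` gives
`k₂(D) (J ξ) = g(D) ξ`.  Hence `(k * (1 - exp))(D) ξ = 0` for all compactly supported `k`.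
(D) If `G` is compactly supported with `G 0 = 0` then `G(D) ξ = 0`: with
`k := G * (1 - exp) / ((1 - exp)² + η)` (`η > 0` constant) we have
`G - k * (1 - exp) = G * η / ((1 - exp)² + η) → 0` uniformly as `η → 0`.
(E) General `F` with `F 0 = 0`: `F(D) ξ ≈ F(D) c(D) ξ = (F c)(D) ξ = 0` with `c` a compactly
supported cut-off from `exists_cutoff_approx`.  Apply to `F = f - f 0`.

Proof of (F2).  `HalfExp (x ξ) (J (x⋆ ξ))` by `tomita`.  For a compactly supported cut-off `f`,
`f(D) (J x⋆ξ) = (f e^{u/2})(D) (x ξ) = (f * min (e^{u/2}) (e^{β/2}))(D) (x ξ)` by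
`apply_eq_of_eqOn`, of norm `≤ ‖f‖ e^{β/2} ‖x ξ‖`; let `f(D) → 1` (`exists_cutoff_approx`).
-/

set_option autoImplicit false

namespace Crest.Agent.Rec

open Crest.OpAlg MeasureTheory
open scoped BoundedContinuousFunction InnerProductSpace

variable {H : Type*} [NormedAddCommGroup H] [InnerProductSpace ℂ H] [CompleteSpace H]
variable (S : ModularDatum H)

/-- `J` is antiunitary. -/
private theorem vac_inner_J (x y : H) : ⟪S.J x, S.J y⟫_ℂ = ⟪y, x⟫_ℂ := by
  have hn : ∀ z : H, ‖S.J z‖ = ‖z‖ := fun z => S.J.norm_map z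
  have hI : ∀ z : H, S.J (Complex.I • z) = -(Complex.I • S.J z) := by
    intro z
    rw [map_smulₛₗ, Complex.conj_I, neg_smul]
  have h1 : ‖S.J x + S.J y‖ = ‖y + x‖ := by rw [← map_add, hn, add_comm]
  have h2 : ‖S.J x - S.J y‖ = ‖y - x‖ := by rw [← map_sub, hn, norm_sub_rev]
  have h3 : ‖S.J x - Complex.I • S.J y‖ = ‖y - Complex.I • x‖ := by
    have e1 : S.J x - Complex.I • S.J y = S.J (x + Complex.I • y) := by
      rw [map_add, hI]; abel
    have e2 : y - Complex.I • x = -(Complex.I • (x + Complex.I • y)) := by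
      rw [smul_add, smul_smul, Complex.I_mul_I, neg_one_smul]; abel
    rw [e1, hn, e2, norm_neg, norm_smul, Complex.norm_I, one_mul]
  have h4 : ‖S.J x + Complex.I • S.J y‖ = ‖y + Complex.I • x‖ := by
    have e1 : S.J x + Complex.I • S.J y = S.J (x - Complex.I • y) := by
      rw [map_sub, hI]; abel
    have e2 : y + Complex.I • x = Complex.I • (x - Complex.I • y) := by
      rw [smul_sub, smul_smul, Complex.I_mul_I, neg_one_smul]; abel
    rw [e1, hn, e2, norm_smul, Complex.norm_I, one_mul]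
  rw [inner_eq_sum_norm_sq_div_four (𝕜 := ℂ) (S.J x) (S.J y),
    inner_eq_sum_norm_sq_div_four (𝕜 := ℂ) y x]
  simp only [RCLike.I_to_complex]
  rw [h1, h2, h3, h4]

/-- `k * w` as a bounded continuous function (`k` compactly supported, `w` continuous). -/
private noncomputable def vac_mul (k : ℝ →ᵇ ℂ) (hk : HasCompactSupport (k : ℝ → ℂ))
    (w : ℝ → ℂ) (hw : Continuous w) : ℝ →ᵇ ℂ :=
  BoundedContinuousFunction.ofNormedAddCommGroup (fun u => k u * w u) (k.continuous.mul hw)
    (Classical.choose ((k.continuous.mul hw).bounded_above_of_compact_support hk.mul_right))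
    (Classical.choose_spec ((k.continuous.mul hw).bounded_above_of_compact_support hk.mul_right))

private theorem vac_mul_apply (k : ℝ →ᵇ ℂ) (hk : HasCompactSupport (k : ℝ → ℂ))
    (w : ℝ → ℂ) (hw : Continuous w) (u : ℝ) : vac_mul k hk w hw u = k u * w u := rfl

private theorem vac_mul_hcs (k : ℝ →ᵇ ℂ) (hk : HasCompactSupport (k : ℝ → ℂ))
    (w : ℝ → ℂ) (hw : Continuous w) : HasCompactSupport (vac_mul k hk w hw : ℝ → ℂ) :=
  hk.mul_right (f' := w)

private theorem vac_star_hcs {k : ℝ →ᵇ ℂ} (hk : HasCompactSupport (k : ℝ → ℂ)) :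
    HasCompactSupport ((star k : ℝ →ᵇ ℂ) : ℝ → ℂ) :=
  hk.comp_left (g := star) (star_zero _)

private theorem vac_continuous_exp_half : Continuous fun u : ℝ => ((Real.exp (u / 2) : ℝ) : ℂ) := by
  fun_prop

private theorem vac_continuous_exp : Continuous fun u : ℝ => ((Real.exp u : ℝ) : ℂ) := by
  fun_prop

/-- (A) The `tomita` closure lies in the closed set `⟪p.2, ξ⟫ = ⟪ξ, p.1⟫`. -/
private theorem vac_closed_rel {p : H × H} (hp : S.D.HalfExp p.1 (S.J p.2)) :
    ⟪p.2, S.vac⟫_ℂ = ⟪S.vac, p.1⟫_ℂ := by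
  have hmem : p ∈ closure (Set.range fun a : S.M =>
      ((a : H →L[ℂ] H) S.vac, star (a : H →L[ℂ] H) S.vac)) := by
    rw [S.tomita]; exact hp
  have hclosed : IsClosed {q : H × H | ⟪q.2, S.vac⟫_ℂ = ⟪S.vac, q.1⟫_ℂ} :=
    isClosed_eq (by fun_prop) (by fun_prop)
  refine closure_minimal ?_ hclosed hmem
  rintro _ ⟨a, rfl⟩
  show ⟪star (a : H →L[ℂ] H) S.vac, S.vac⟫_ℂ = ⟪S.vac, (a : H →L[ℂ] H) S.vac⟫_ℂ
  rw [ContinuousLinearMap.star_eq_adjoint, ContinuousLinearMap.adjoint_inner_left]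

/-- (C0) `HalfExp ξ (J ξ)`. -/
private theorem vac_halfExp_vac : S.D.HalfExp S.vac (S.J S.vac) := by
  have hmem : ((S.vac, S.vac) : H × H) ∈ closure (Set.range fun a : S.M =>
      ((a : H →L[ℂ] H) S.vac, star (a : H →L[ℂ] H) S.vac)) := by
    refine subset_closure ⟨⟨1, S.M.one_mem⟩, ?_⟩
    show (((1 : H →L[ℂ] H) S.vac, star (1 : H →L[ℂ] H) S.vac) : H × H) = (S.vac, S.vac)
    rw [star_one]; rfl
  rw [S.tomita] at hmem
  exact hmem

/-- (B) `⟪J ξ, k₂(D) z⟫ = ⟪ξ, k(D) z⟫` for compactly supported `k`, `k₂ = k e^{u/2}`. -/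
private theorem vac_inner_half (k : ℝ →ᵇ ℂ) (hk : HasCompactSupport (k : ℝ → ℂ)) (z : H) :
    ⟪S.J S.vac, S.D.apply (vac_mul k hk _ vac_continuous_exp_half) z⟫_ℂ =
      ⟪S.vac, S.D.apply k z⟫_ℂ := by
  have hHE : S.D.HalfExp (S.D.apply k z)
      (S.J (S.J (S.D.apply (vac_mul k hk _ vac_continuous_exp_half) z))) := by
    rw [S.J_J]
    intro f g hfg
    rw [apply_apply_mul, apply_apply_mul]
    congr 2
    ext u
    rw [BoundedContinuousFunction.mul_apply, BoundedContinuousFunction.mul_apply, vac_mul_apply,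
      hfg u]
    ring
  have h1 := vac_closed_rel S
    (p := (S.D.apply k z, S.J (S.D.apply (vac_mul k hk _ vac_continuous_exp_half) z))) hHE
  have h2 := vac_inner_J S (S.D.apply (vac_mul k hk _ vac_continuous_exp_half) z) (S.J S.vac)
  rw [S.J_J] at h2
  rw [← h2]
  exact h1

/-- (B') `k₂(D) (J ξ) = k(D) ξ` for compactly supported `k`. -/
private theorem vac_apply_half (k : ℝ →ᵇ ℂ) (hk : HasCompactSupport (k : ℝ → ℂ)) :
    S.D.apply (vac_mul k hk _ vac_continuous_exp_half) (S.J S.vac) = S.D.apply k S.vac := by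
  refine ext_inner_right ℂ (fun z => ?_)
  have h := vac_inner_half S (star k) (vac_star_hcs hk) z
  have e1 : star (vac_mul k hk _ vac_continuous_exp_half) =
      vac_mul (star k) (vac_star_hcs hk) _ vac_continuous_exp_half := by
    ext u
    rw [BoundedContinuousFunction.star_apply, vac_mul_apply, vac_mul_apply,
      BoundedContinuousFunction.star_apply, star_mul', Complex.star_def, Complex.conj_ofReal]
  rw [inner_apply_left, inner_apply_left, e1]
  exact h

/-- (C) `(k e^u)(D) ξ = k(D) ξ` for compactly supported `k`. -/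
private theorem vac_apply_exp (k : ℝ →ᵇ ℂ) (hk : HasCompactSupport (k : ℝ → ℂ)) :
    S.D.apply (vac_mul k hk _ vac_continuous_exp) S.vac = S.D.apply k S.vac := by
  rw [← vac_apply_half S k hk]
  refine (vac_halfExp_vac S _ _ (fun u => ?_)).symm
  rw [vac_mul_apply, vac_mul_apply, mul_assoc, ← Complex.ofReal_mul, ← Real.exp_add, add_halves]

private theorem vac_continuous_one_sub_exp :
    Continuous fun u : ℝ => ((1 - Real.exp u : ℝ) : ℂ) := by
  fun_prop

/-- (C') `(k (1 - e^u))(D) ξ = 0` for compactly supported `k`. -/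
private theorem vac_apply_one_sub_exp (k : ℝ →ᵇ ℂ) (hk : HasCompactSupport (k : ℝ → ℂ)) :
    S.D.apply (vac_mul k hk _ vac_continuous_one_sub_exp) S.vac = 0 := by
  have e1 : vac_mul k hk _ vac_continuous_one_sub_exp = k - vac_mul k hk _ vac_continuous_exp := by
    ext u
    rw [BoundedContinuousFunction.sub_apply, vac_mul_apply, vac_mul_apply]
    push_cast
    ring
  rw [e1, map_sub, sub_apply, vac_apply_exp, sub_self]

private theorem vac_continuous_reg (η : ℝ) (hη : 0 < η) :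
    Continuous fun u : ℝ =>
      (((1 - Real.exp u) / ((1 - Real.exp u) ^ 2 + η) : ℝ) : ℂ) := by
  refine Complex.continuous_ofReal.comp ?_
  refine Continuous.div (by fun_prop) (by fun_prop) (fun u => ?_)
  positivity

private theorem vac_one_sub_exp_sq_ge {δ u : ℝ} (hδ : 0 < δ) (hu : δ ≤ |u|) :
    (δ / (1 + δ)) ^ 2 ≤ (1 - Real.exp u) ^ 2 := by
  have hm : 0 ≤ δ / (1 + δ) := by positivity
  have hm1 : δ / (1 + δ) ≤ δ := div_le_self hδ.le (by linarith)
  have key : δ / (1 + δ) ≤ |1 - Real.exp u| := by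
    rcases le_abs.1 hu with h | h
    · have h1 := Real.add_one_le_exp u
      rw [abs_sub_comm, abs_of_nonneg (by linarith)]
      linarith
    · have h1 : Real.exp u ≤ (1 + δ)⁻¹ := by
        have h2 : Real.exp u ≤ Real.exp (-δ) := Real.exp_le_exp.2 (by linarith)
        have h3 : Real.exp (-δ) ≤ (1 + δ)⁻¹ := by
          rw [Real.exp_neg]
          exact inv_anti₀ (by linarith) (by have := Real.add_one_le_exp δ; linarith)
        exact h2.trans h3
      have h4 : δ / (1 + δ) = 1 - (1 + δ)⁻¹ := by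
        field_simp
        ring
      rw [h4] at hm ⊢
      rw [abs_of_nonneg (by linarith)]
      linarith
  calc (δ / (1 + δ)) ^ 2 ≤ |1 - Real.exp u| ^ 2 := pow_le_pow_left₀ hm key 2
    _ = (1 - Real.exp u) ^ 2 := sq_abs _

/-- (D) compactly supported functions vanishing at `0` kill the vacuum. -/
private theorem vac_apply_of_zero (G : ℝ →ᵇ ℂ) (hG : HasCompactSupport (G : ℝ → ℂ))
    (h0 : G 0 = 0) : S.D.apply G S.vac = 0 := by
  have key : ∀ ε : ℝ, 0 < ε → ‖S.D.apply G S.vac‖ ≤ ε := by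
    intro ε hε
    obtain ⟨δ, hδ, hδG⟩ :=
      Metric.continuousAt_iff.1 (G.continuous.continuousAt (x := 0)) ε hε
    have hm : 0 < δ / (1 + δ) := by positivity
    have hGn : 0 ≤ ‖G‖ := norm_nonneg G
    set η : ℝ := ε * (δ / (1 + δ)) ^ 2 / (‖G‖ + 1) with hηdef
    have hη : 0 < η := by positivity
    set k : ℝ →ᵇ ℂ := vac_mul G hG _ (vac_continuous_reg η hη) with hk
    have hkc : HasCompactSupport (k : ℝ → ℂ) := vac_mul_hcs G hG _ _
    set P : ℝ →ᵇ ℂ := vac_mul k hkc _ vac_continuous_one_sub_exp with hP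
    have hP0 : S.D.apply P S.vac = 0 := vac_apply_one_sub_exp S k hkc
    have hR : ‖G - P‖ ≤ ε := by
      rw [BoundedContinuousFunction.norm_le hε.le]
      intro u
      have hden : 0 < (1 - Real.exp u) ^ 2 + η := by positivity
      have e1 : (G - P) u = G u * ((η / ((1 - Real.exp u) ^ 2 + η) : ℝ) : ℂ) := by
        rw [BoundedContinuousFunction.sub_apply, hP, vac_mul_apply, hk, vac_mul_apply]
        have e2 : η / ((1 - Real.exp u) ^ 2 + η) =
            1 - (1 - Real.exp u) / ((1 - Real.exp u) ^ 2 + η) * (1 - Real.exp u) := by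
          field_simp
          ring
        rw [e2]
        push_cast
        ring
      have hr0 : 0 ≤ η / ((1 - Real.exp u) ^ 2 + η) := by positivity
      rw [e1, norm_mul, Complex.norm_real, Real.norm_eq_abs, abs_of_nonneg hr0]
      rcases lt_or_ge |u| δ with hu | hu
      · have h1 : ‖G u‖ < ε := by
          have h2 := hδG (x := u) (by rw [Real.dist_eq, sub_zero]; exact hu)
          rw [h0, dist_zero_right] at h2
          exact h2
        have h3 : η / ((1 - Real.exp u) ^ 2 + η) ≤ 1 := by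
          rw [div_le_one hden]
          nlinarith [sq_nonneg (1 - Real.exp u)]
        calc ‖G u‖ * (η / ((1 - Real.exp u) ^ 2 + η)) ≤ ‖G u‖ * 1 :=
              mul_le_mul_of_nonneg_left h3 (norm_nonneg _)
          _ ≤ ε := by rw [mul_one]; exact h1.le
      · have h1 : ‖G u‖ ≤ ‖G‖ := G.norm_coe_le_norm u
        have h2 := vac_one_sub_exp_sq_ge hδ hu
        have h3 : η / ((1 - Real.exp u) ^ 2 + η) ≤ η / (δ / (1 + δ)) ^ 2 :=
          div_le_div_of_nonneg_left hη.le (by positivity) (by linarith)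
        have h4 : η / (δ / (1 + δ)) ^ 2 = ε / (‖G‖ + 1) := by
          rw [hηdef]
          field_simp
        calc ‖G u‖ * (η / ((1 - Real.exp u) ^ 2 + η)) ≤ ‖G‖ * (ε / (‖G‖ + 1)) := by
              rw [← h4]
              exact mul_le_mul h1 h3 hr0 hGn
          _ ≤ ε := by
              rw [mul_div_assoc', div_le_iff₀ (by linarith)]
              nlinarith
    have e3 : S.D.apply G S.vac = S.D.apply (G - P) S.vac := by
      rw [map_sub, sub_apply, hP0, sub_zero]
    rw [e3]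
    calc ‖S.D.apply (G - P) S.vac‖ ≤ ‖G - P‖ * ‖S.vac‖ := norm_apply_apply_le S.D _ _
      _ ≤ ε * 1 := by
          rw [S.norm_vac]
          exact mul_le_mul_of_nonneg_right hR zero_le_one
      _ = ε := mul_one ε
  by_contra hne
  have hpos : 0 < ‖S.D.apply G S.vac‖ := norm_pos_iff.2 hne
  have := key (‖S.D.apply G S.vac‖ / 2) (by positivity)
  linarith

/-- (E) every bounded continuous function vanishing at `0` kills the vacuum. -/
private theorem vac_apply_of_zero' (F : ℝ →ᵇ ℂ) (h0 : F 0 = 0) : S.D.apply F S.vac = 0 := by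
  have key : ∀ ε : ℝ, 0 < ε → ‖S.D.apply F S.vac‖ ≤ ‖F‖ * ε := by
    intro ε hε
    obtain ⟨c, hc, -, hcε⟩ := exists_cutoff_approx S.D S.vac hε
    have hFcc : HasCompactSupport ((F * c : ℝ →ᵇ ℂ) : ℝ → ℂ) := by
      rw [BoundedContinuousFunction.coe_mul]
      exact hc.mul_left
    have hFc : S.D.apply (F * c) S.vac = 0 :=
      vac_apply_of_zero S (F * c) hFcc (by
        rw [BoundedContinuousFunction.mul_apply, h0, zero_mul])
    have e : S.D.apply F S.vac = S.D.apply F (S.vac - S.D.apply c S.vac) := by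
      rw [map_sub, apply_apply_mul, hFc, sub_zero]
    rw [e]
    calc ‖S.D.apply F (S.vac - S.D.apply c S.vac)‖
        ≤ ‖F‖ * ‖S.vac - S.D.apply c S.vac‖ := norm_apply_apply_le S.D F _
      _ ≤ ‖F‖ * ε := by
          rw [norm_sub_rev]
          exact mul_le_mul_of_nonneg_left hcε.le (norm_nonneg F)
  by_contra hne
  have hpos : 0 < ‖S.D.apply F S.vac‖ := norm_pos_iff.2 hne
  have hFn : 0 ≤ ‖F‖ := norm_nonneg F
  have h1 := key (‖S.D.apply F S.vac‖ / (2 * (‖F‖ + 1))) (by positivity)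
  have h2 : ‖F‖ * (‖S.D.apply F S.vac‖ / (2 * (‖F‖ + 1))) ≤ ‖S.D.apply F S.vac‖ / 2 := by
    rw [mul_div_assoc', div_le_div_iff₀ (by positivity) (by positivity)]
    nlinarith
  linarith

/-- (F1) The vacuum is an eigenvector of `D` with eigenvalue `0`. -/
theorem apply_vac (f : ℝ →ᵇ ℂ) : S.D.apply f S.vac = f 0 • S.vac := by
  have h := vac_apply_of_zero' S (f - f 0 • (1 : ℝ →ᵇ ℂ)) (by
    rw [BoundedContinuousFunction.sub_apply, BoundedContinuousFunction.smul_apply,
      BoundedContinuousFunction.coe_one, Pi.one_apply, smul_eq_mul, mul_one, sub_self])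
  rw [map_sub, map_smul, map_one, sub_apply, smul_apply] at h
  exact sub_eq_zero.1 h

theorem wave_vac (t : ℝ) : S.D.wave t S.vac = S.vac := by
  show S.D.apply (LineCalculus.character t) S.vac = S.vac
  rw [apply_vac, character_apply, mul_zero, Complex.ofReal_zero, mul_zero, Complex.exp_zero,
    one_smul]

theorem flow_vac (t : ℝ) (a : H →L[ℂ] H) : S.flow t a S.vac = S.D.wave t (a S.vac) := by
  rw [flow_apply, wave_vac]

/-- (F2) KMS bound for spectrally localised elements. -/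
theorem kms_bound {x : H →L[ℂ] H} (hx : x ∈ S.M) {β : ℝ} {K : Set ℝ} (hK : K ⊆ Set.Iic β)
    (hsupp : S.D.SupportedIn K (x S.vac)) :
    ‖star x S.vac‖ ^ 2 ≤ Real.exp β * ‖x S.vac‖ ^ 2 :=
  Kms.kms_bound' S hx hK hsupp

end Crest.Agent.Rec
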