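import Crest.Agent.Rec.Mean
import Crest.Agent.Rec.Tomita

/-!
# S0112, piece P6: the ergodic mean

(F3) For `b ∈ M`, the bounded sesquilinear form
`B(u, w) := mean_t Re⟪u, σ_t(b) w⟫ + i * mean_t Im⟪u, σ_t(b) w⟫` defines a bounded operator `E`
with `⟪u, E w⟫ = B(u, w)`.  `E` commutes with every `c ∈ M'` (as `σ_t(b) ∈ M`), so `E ∈ M'' = M`
(`VonNeumannAlgebra.commutant_commutant`, `VonNeumannAlgebra.mem_commutant_iff`); `E` is fixed by
the flow (`ultraMean_translate`); so `E = c • 1` by ergodicity, and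
`c = ⟪ξ, E ξ⟫ = mean_t ⟪ξ, σ_t(b) ξ⟫ = ⟪ξ, b ξ⟫` (`wave_vac`, `ultraMean_const`).
-/

set_option autoImplicit false

namespace Crest.Agent.Rec

open Crest.OpAlg MeasureTheory
open scoped BoundedContinuousFunction InnerProductSpace

variable {H : Type*} [NormedAddCommGroup H] [InnerProductSpace ℂ H] [CompleteSpace H]
variable (S : ModularDatum H)

/-! ### The complex mean -/

/-- The complex mean of a complex function: the mean of the real part plus `i` times the mean of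
the imaginary part. -/
noncomputable def erg_cmean (ω : Ultrafilter ℕ) (F : ℝ → ℂ) : ℂ :=
  ⟨ultraMean ω (fun t => (F t).re), ultraMean ω (fun t => (F t).im)⟩

/-- Bounded continuous complex functions, through their real and imaginary parts. -/
def erg_CBC (F : ℝ → ℂ) : Prop := BC (fun t => (F t).re) ∧ BC (fun t => (F t).im)

theorem erg_CBC_add {F G : ℝ → ℂ} (hF : erg_CBC F) (hG : erg_CBC G) :
    erg_CBC (fun t => F t + G t) := by
  refine ⟨?_, ?_⟩
  · simp only [Complex.add_re]; exact hF.1.add hG.1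
  · simp only [Complex.add_im]; exact hF.2.add hG.2

theorem erg_cmean_add (ω : Ultrafilter ℕ) {F G : ℝ → ℂ} (hF : erg_CBC F) (hG : erg_CBC G) :
    erg_cmean ω (fun t => F t + G t) = erg_cmean ω F + erg_cmean ω G := by
  apply Complex.ext
  · rw [Complex.add_re]
    show ultraMean ω (fun t => (F t + G t).re) =
      ultraMean ω (fun t => (F t).re) + ultraMean ω (fun t => (G t).re)
    simp only [Complex.add_re]
    exact ultraMean_add ω hF.1 hG.1
  · rw [Complex.add_im]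
    show ultraMean ω (fun t => (F t + G t).im) =
      ultraMean ω (fun t => (F t).im) + ultraMean ω (fun t => (G t).im)
    simp only [Complex.add_im]
    exact ultraMean_add ω hF.2 hG.2

theorem erg_cmean_mul_left (ω : Ultrafilter ℕ) (c : ℂ) {F : ℝ → ℂ} (hF : erg_CBC F) :
    erg_cmean ω (fun t => c * F t) = c * erg_cmean ω F := by
  apply Complex.ext
  · rw [Complex.mul_re]
    show ultraMean ω (fun t => (c * F t).re) =
      c.re * ultraMean ω (fun t => (F t).re) - c.im * ultraMean ω (fun t => (F t).im)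
    simp only [Complex.mul_re]
    rw [ultraMean_sub ω (hF.1.const_mul c.re) (hF.2.const_mul c.im),
      ultraMean_const_mul ω c.re hF.1, ultraMean_const_mul ω c.im hF.2]
  · rw [Complex.mul_im]
    show ultraMean ω (fun t => (c * F t).im) =
      c.re * ultraMean ω (fun t => (F t).im) + c.im * ultraMean ω (fun t => (F t).re)
    simp only [Complex.mul_im]
    rw [ultraMean_add ω (hF.2.const_mul c.re) (hF.1.const_mul c.im),
      ultraMean_const_mul ω c.re hF.2, ultraMean_const_mul ω c.im hF.1]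

theorem erg_cmean_const (ω : Ultrafilter ℕ) (hω : (ω : Filter ℕ) ≤ Filter.atTop) (c : ℂ) :
    erg_cmean ω (fun _ : ℝ => c) = c := by
  apply Complex.ext
  · exact ultraMean_const ω hω c.re
  · exact ultraMean_const ω hω c.im

theorem erg_cmean_translate (ω : Ultrafilter ℕ) (hω : (ω : Filter ℕ) ≤ Filter.atTop)
    {F : ℝ → ℂ} (hF : erg_CBC F) (r : ℝ) :
    erg_cmean ω (fun t => F (t + r)) = erg_cmean ω F := by
  apply Complex.ext
  · exact ultraMean_translate ω hω hF.1 r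
  · exact ultraMean_translate ω hω hF.2 r

theorem erg_norm_cmean_le (ω : Ultrafilter ℕ) (hω : (ω : Filter ℕ) ≤ Filter.atTop)
    {F : ℝ → ℂ} (hF : erg_CBC F) {B : ℝ} (hre : ∀ t, |(F t).re| ≤ B)
    (him : ∀ t, |(F t).im| ≤ B) : ‖erg_cmean ω F‖ ≤ 2 * B := by
  have h1 : |(erg_cmean ω F).re| ≤ B := abs_ultraMean_le ω hω hF.1 hre
  have h2 : |(erg_cmean ω F).im| ≤ B := abs_ultraMean_le ω hω hF.2 him
  have h3 := Complex.norm_le_abs_re_add_abs_im (erg_cmean ω F)
  linarith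

/-! ### The mean operator -/

theorem erg_cbc_flow (b : H →L[ℂ] H) (u w : H) :
    erg_CBC (fun t : ℝ => ⟪u, S.flow t b w⟫_ℂ) :=
  ⟨bc_flow_re S b u w, bc_flow_im S b u w⟩

/-- The weak mean of `t ↦ σ_t(b)` as a bounded operator. -/
theorem erg_exists_op (ω : Ultrafilter ℕ) (hω : (ω : Filter ℕ) ≤ Filter.atTop)
    (b : H →L[ℂ] H) :
    ∃ E : H →L[ℂ] H, ∀ u w : H,
      ⟪u, E w⟫_ℂ = erg_cmean ω (fun t : ℝ => ⟪u, S.flow t b w⟫_ℂ) := by
  let Bf : H → H → ℂ := fun u w => erg_cmean ω (fun t : ℝ => ⟪u, S.flow t b w⟫_ℂ)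
  have H1 : ∀ u₁ u₂ w, Bf (u₁ + u₂) w = Bf u₁ w + Bf u₂ w := by
    intro u₁ u₂ w
    show erg_cmean ω (fun t : ℝ => ⟪u₁ + u₂, S.flow t b w⟫_ℂ) = _
    simp only [inner_add_left]
    exact erg_cmean_add ω (erg_cbc_flow S b u₁ w) (erg_cbc_flow S b u₂ w)
  have H2 : ∀ (c : ℂ) (u w : H), Bf (c • u) w = (starRingEnd ℂ) c • Bf u w := by
    intro c u w
    show erg_cmean ω (fun t : ℝ => ⟪c • u, S.flow t b w⟫_ℂ) = _
    simp only [inner_smul_left]
    rw [smul_eq_mul]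
    exact erg_cmean_mul_left ω _ (erg_cbc_flow S b u w)
  have H3 : ∀ u w₁ w₂, Bf u (w₁ + w₂) = Bf u w₁ + Bf u w₂ := by
    intro u w₁ w₂
    show erg_cmean ω (fun t : ℝ => ⟪u, S.flow t b (w₁ + w₂)⟫_ℂ) = _
    simp only [map_add, inner_add_right]
    exact erg_cmean_add ω (erg_cbc_flow S b u w₁) (erg_cbc_flow S b u w₂)
  have H4 : ∀ (c : ℂ) (u w : H), Bf u (c • w) = (RingHom.id ℂ) c • Bf u w := by
    intro c u w
    show erg_cmean ω (fun t : ℝ => ⟪u, S.flow t b (c • w)⟫_ℂ) = _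
    simp only [map_smul, inner_smul_right]
    rw [RingHom.id_apply, smul_eq_mul]
    exact erg_cmean_mul_left ω _ (erg_cbc_flow S b u w)
  have hbd : ∀ u w : H,
      ‖LinearMap.mk₂'ₛₗ (starRingEnd ℂ) (RingHom.id ℂ) Bf H1 H2 H3 H4 u w‖ ≤
        (2 * ‖b‖) * ‖u‖ * ‖w‖ := by
    intro u w
    show ‖erg_cmean ω (fun t : ℝ => ⟪u, S.flow t b w⟫_ℂ)‖ ≤ _
    have h := erg_norm_cmean_le ω hω (erg_cbc_flow S b u w) (B := ‖b‖ * ‖u‖ * ‖w‖)
      (abs_flow_re_le S b u w) (abs_flow_im_le S b u w)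
    calc ‖erg_cmean ω (fun t : ℝ => ⟪u, S.flow t b w⟫_ℂ)‖ ≤ 2 * (‖b‖ * ‖u‖ * ‖w‖) := h
      _ = (2 * ‖b‖) * ‖u‖ * ‖w‖ := by ring
  let Bop : H →L⋆[ℂ] H →L[ℂ] ℂ :=
    LinearMap.mkContinuous₂ (LinearMap.mk₂'ₛₗ (starRingEnd ℂ) (RingHom.id ℂ) Bf H1 H2 H3 H4)
      (2 * ‖b‖) hbd
  refine ⟨ContinuousLinearMap.adjoint (InnerProductSpace.continuousLinearMapOfBilin Bop),
    fun u w => ?_⟩
  rw [ContinuousLinearMap.adjoint_inner_right,
    InnerProductSpace.continuousLinearMapOfBilin_apply]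
  rfl

/-- (F3), complex form. -/
theorem erg_cmean_flow (herg : S.Ergodic) (ω : Ultrafilter ℕ)
    (hω : (ω : Filter ℕ) ≤ Filter.atTop) {b : H →L[ℂ] H} (hb : b ∈ S.M) (u w : H) :
    erg_cmean ω (fun t : ℝ => ⟪u, S.flow t b w⟫_ℂ) = ⟪S.vac, b S.vac⟫_ℂ * ⟪u, w⟫_ℂ := by
  obtain ⟨E, hE⟩ := erg_exists_op S ω hω b
  -- `E` lies in `M = M''`
  have hEM : E ∈ S.M := by
    rw [← S.M.commutant_commutant, VonNeumannAlgebra.mem_commutant_iff]
    intro c hc
    rw [VonNeumannAlgebra.mem_commutant_iff] at hc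
    apply ContinuousLinearMap.ext
    intro w'
    apply ext_inner_left ℂ
    intro u'
    show ⟪u', c (E w')⟫_ℂ = ⟪u', E (c w')⟫_ℂ
    rw [← ContinuousLinearMap.adjoint_inner_left c (E w') u', hE, hE]
    congr 1
    funext t
    rw [ContinuousLinearMap.adjoint_inner_left]
    have h1 := hc (S.flow t b) (flow_mem_M S t hb)
    have h2 : S.flow t b (c w') = c (S.flow t b w') :=
      congrArg (fun A : H →L[ℂ] H => A w') h1
    rw [h2]
  -- `E` is fixed by the flow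
  have hEfix : ∀ r : ℝ, S.flow r E = E := by
    intro r
    apply ContinuousLinearMap.ext
    intro w'
    apply ext_inner_left ℂ
    intro u'
    rw [inner_flow, hE, hE]
    have hfun : (fun t : ℝ => ⟪S.D.wave (-r) u', S.flow t b (S.D.wave (-r) w')⟫_ℂ) =
        fun t : ℝ => (fun t' : ℝ => ⟪u', S.flow t' b w'⟫_ℂ) (t + r) := by
      funext t
      show _ = ⟪u', S.flow (t + r) b w'⟫_ℂ
      rw [add_comm t r, ← flow_flow S r t b, inner_flow S r (S.flow t b) u' w']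
    rw [hfun]
    exact erg_cmean_translate ω hω (erg_cbc_flow S b u' w') r
  obtain ⟨c, hc⟩ := herg E hEM hEfix
  -- the value of the scalar
  have hcval : c = ⟪S.vac, b S.vac⟫_ℂ := by
    have h1 := hE S.vac S.vac
    have hfun : (fun t : ℝ => ⟪S.vac, S.flow t b S.vac⟫_ℂ) =
        fun _ : ℝ => ⟪S.vac, b S.vac⟫_ℂ := by
      funext t
      rw [inner_flow, wave_vac]
    rw [hfun, erg_cmean_const ω hω, hc] at h1
    rw [← h1]
    simp [S.norm_vac]
  rw [← hE u w, hc, ← hcval]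
  simp

/-- (F3) Ergodic mean of matrix coefficients of the flow. -/
theorem mean_flow (herg : S.Ergodic) (ω : Ultrafilter ℕ) (hω : (ω : Filter ℕ) ≤ Filter.atTop)
    {b : H →L[ℂ] H} (hb : b ∈ S.M) (u w : H) :
    ultraMean ω (fun t : ℝ => (⟪u, S.flow t b w⟫_ℂ).re) =
      (⟪S.vac, b S.vac⟫_ℂ * ⟪u, w⟫_ℂ).re :=
  congrArg Complex.re (erg_cmean_flow S herg ω hω hb u w)

/-- The same for negative times (reflection invariance of the mean). -/
theorem mean_flow_neg (herg : S.Ergodic) (ω : Ultrafilter ℕ)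
    (hω : (ω : Filter ℕ) ≤ Filter.atTop) {b : H →L[ℂ] H} (hb : b ∈ S.M) (u w : H) :
    ultraMean ω (fun t : ℝ => (⟪u, S.flow (-t) b w⟫_ℂ).re) =
      (⟪S.vac, b S.vac⟫_ℂ * ⟪u, w⟫_ℂ).re := by
  rw [ultraMean_reflect ω (fun t : ℝ => (⟪u, S.flow t b w⟫_ℂ).re)]
  exact mean_flow S herg ω hω hb u w

end Crest.Agent.Rec
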