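import Crest.Agent.Rec.Erg

/-!
# S0112, pieces P8a/P8b: the greedy superposition

Notation: `ξ = S.vac`, `q = qT ω S.D T`, `Φ(Y) = ‖(star Y * Y) ξ‖²`, `b(Y) = ‖Y ξ‖²`,
`κ = exp β`, `y_t = S.flow t x` (so `y_t ξ = W(t) x ξ`, `star y_t = S.flow t (star x)`).

One step (P8a).  For the two candidates `Y ± y_t`:
* `avg± q((Y ± y_t) ξ) = q(Y ξ) + q(x ξ)` (`qT_parallelogram`, `qT_wave`);
* `avg± b(Y ± y_t) = b(Y) + b(x)` (parallelogram law, `norm_wave_apply`);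
* `avg± Φ(Y ± y_t) = ‖(Y⋆Y + y_t⋆y_t) ξ‖² + ‖(Y⋆y_t + y_t⋆Y) ξ‖²
   ≤ Φ(Y) + Φ(x) + 2 Re⟪Y⋆Y ξ, σ_t(x⋆x) ξ⟫ + 2 ⟪x ξ, σ_{-t}(Y Y⋆) x ξ⟫ + 2 ⟪Y ξ, σ_t(x x⋆) Y ξ⟫`,
  and the mean over `t` of the last three terms is (`mean_flow`, `mean_flow_neg`)
  `2 b(x) b(Y) + 2 ‖Y⋆ ξ‖² b(x) + 2 ‖x⋆ ξ‖² b(Y) ≤ (2 + 4κ) b(x) b(Y)` (`kms_bound` twice).
So the mean over `t` of `avg± [q - lam Φ - mu b](Y ± y_t)` is at least
`q(Yξ) - lam Φ(Y) - (mu + lam (2+4κ) b(x)) b(Y) + q(xξ) - lam Φ(x) - mu b(x)`; pick `t`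
(`exists_ge_ultraMean`) and the better sign.

Iteration (P8b).  `Y₀ = 0`, `N ≥ Φ(x)/b(x)²`, `lam = q₀ / (4 (1+2κ) b(x)² N)`,
`mu_j = lam (2+4κ) b(x) (N - j)`, `ε = q₀/4`: after `N` steps
`q(Y_N ξ) - lam Φ(Y_N) ≥ N q₀ / 4`; `X := (1/√N) • Y_N` has `q(X ξ) ≥ q₀/4` and
`Φ(X) ≤ q(X ξ) / (lam N) ≤ (4 (1+2κ) b(x)² / q₀) ‖T‖² ‖X ξ‖²` with `‖X ξ‖² = ⟪ξ, X⋆X ξ⟫ ≤ Φ(X)^{1/2}`.
-/

set_option autoImplicit false

namespace Crest.Agent.Rec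

open Crest.OpAlg MeasureTheory
open scoped BoundedContinuousFunction InnerProductSpace

variable {H : Type*} [NormedAddCommGroup H] [InnerProductSpace ℂ H] [CompleteSpace H]
variable (S : ModularDatum H)

theorem gs_inner_star_mul_self (A : H →L[ℂ] H) (z : H) :
    ⟪z, (star A * A) z⟫_ℂ = ((‖A z‖ ^ 2 : ℝ) : ℂ) := by
  rw [mul_apply_eq_comp, ContinuousLinearMap.star_eq_adjoint,
    ContinuousLinearMap.adjoint_inner_right, inner_self_eq_norm_sq_to_K]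
  norm_cast

theorem gs_inner_star_mul_self_left (A : H →L[ℂ] H) (z : H) :
    ⟪(star A * A) z, z⟫_ℂ = ((‖A z‖ ^ 2 : ℝ) : ℂ) := by
  rw [mul_apply_eq_comp, ContinuousLinearMap.star_eq_adjoint,
    ContinuousLinearMap.adjoint_inner_left, inner_self_eq_norm_sq_to_K]
  norm_cast

theorem gs_inner_mul_star_self (A : H →L[ℂ] H) (z : H) :
    ⟪z, (A * star A) z⟫_ℂ = ((‖star A z‖ ^ 2 : ℝ) : ℂ) := by
  have h := gs_inner_star_mul_self (star A) z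
  rwa [star_star] at h

theorem gs_inner_self (z : H) : ⟪z, z⟫_ℂ = ((‖z‖ ^ 2 : ℝ) : ℂ) := by
  rw [inner_self_eq_norm_sq_to_K]
  norm_cast

theorem gs_norm_add_sq_le (a b : H) : ‖a + b‖ ^ 2 ≤ 2 * ‖a‖ ^ 2 + 2 * ‖b‖ ^ 2 := by
  have h1 := norm_add_le a b
  have h2 : ‖a + b‖ ^ 2 ≤ (‖a‖ + ‖b‖) ^ 2 := pow_le_pow_left₀ (norm_nonneg _) h1 2
  nlinarith [sq_nonneg (‖a‖ - ‖b‖)]

theorem gs_parallelogram (a b : H) : ‖a + b‖ ^ 2 + ‖a - b‖ ^ 2 = 2 * ‖a‖ ^ 2 + 2 * ‖b‖ ^ 2 := by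
  have h := parallelogram_law_with_norm ℂ a b
  nlinarith [h]

/-- pointwise bound on the averaged fourth moment -/
theorem gs_pointwise (x Y : H →L[ℂ] H) (t : ℝ) :
    ‖(star (Y + S.flow t x) * (Y + S.flow t x)) S.vac‖ ^ 2
      + ‖(star (Y - S.flow t x) * (Y - S.flow t x)) S.vac‖ ^ 2
    ≤ 2 * (‖(star Y * Y) S.vac‖ ^ 2 + ‖(star x * x) S.vac‖ ^ 2
        + 2 * (⟪(star Y * Y) S.vac, S.flow t (star x * x) S.vac⟫_ℂ).re
        + 2 * (⟪x S.vac, S.flow (-t) (Y * star Y) (x S.vac)⟫_ℂ).re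
        + 2 * (⟪Y S.vac, S.flow t (x * star x) (Y S.vac)⟫_ℂ).re) := by
  set y := S.flow t x with hy
  set ξ := S.vac with hξ
  set p := (star Y * Y) ξ with hp
  set p' := (star y * y) ξ with hp'
  set c₁ := star Y (y ξ) with hc₁
  set c₂ := star y (Y ξ) with hc₂
  have e1 : (star (Y + y) * (Y + y)) ξ = (p + p') + (c₁ + c₂) := by
    simp only [hp, hp', hc₁, hc₂, star_add, mul_apply_eq_comp,
      add_apply, map_add]
    abel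
  have e2 : (star (Y - y) * (Y - y)) ξ = (p + p') - (c₁ + c₂) := by
    simp only [hp, hp', hc₁, hc₂, star_sub, mul_apply_eq_comp,
      sub_apply, map_sub]
    abel
  rw [e1, e2, gs_parallelogram]
  have hyy : star y * y = S.flow t (star x * x) := by
    rw [hy, star_flow, flow_mul]
  have hp'n : ‖p'‖ = ‖(star x * x) ξ‖ := by
    rw [hp', hyy, flow_vac, norm_wave_apply]
  have hP : ‖p + p'‖ ^ 2 = ‖p‖ ^ 2 + 2 * (⟪p, p'⟫_ℂ).re + ‖(star x * x) ξ‖ ^ 2 := by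
    rw [← hp'n]
    exact norm_add_sq (𝕜 := ℂ) p p'
  have hpp' : ⟪p, p'⟫_ℂ = ⟪(star Y * Y) ξ, S.flow t (star x * x) ξ⟫_ℂ := by
    rw [hp, hp', hyy]
  have hQ : ‖c₁ + c₂‖ ^ 2 ≤ 2 * ‖c₁‖ ^ 2 + 2 * ‖c₂‖ ^ 2 := gs_norm_add_sq_le c₁ c₂
  have hc₁n : (⟪x ξ, S.flow (-t) (Y * star Y) (x ξ)⟫_ℂ).re = ‖c₁‖ ^ 2 := by
    rw [flow_apply, neg_neg, inner_wave_right, neg_neg]
    have h1 : S.D.wave t (x ξ) = y ξ := by rw [hy, flow_vac]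
    rw [h1, gs_inner_mul_star_self, hc₁]
    exact Complex.ofReal_re _
  have hc₂n : (⟪Y ξ, S.flow t (x * star x) (Y ξ)⟫_ℂ).re = ‖c₂‖ ^ 2 := by
    have h1 : S.flow t (x * star x) = y * star y := by
      rw [hy, star_flow, flow_mul]
    rw [h1, gs_inner_mul_star_self, hc₂]
    exact Complex.ofReal_re _
  rw [hc₁n, hc₂n, ← hpp']
  linarith

/-- (P8a) One greedy step. -/
theorem greedy_step (herg : S.Ergodic) (ω : Ultrafilter ℕ) (hω : (ω : Filter ℕ) ≤ Filter.atTop)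
    (T : H →L[ℂ] H) {x Y : H →L[ℂ] H} (hx : x ∈ S.M) (hY : Y ∈ S.M) {β : ℝ} {K : Set ℝ}
    (hK : K ⊆ Set.Iic β) (hxs : S.D.SupportedIn K (x S.vac)) (hYs : S.D.SupportedIn K (Y S.vac))
    {lam mu ε : ℝ} (hlam : 0 ≤ lam) (hmu : 0 ≤ mu) (hε : 0 < ε) :
    ∃ Y' : H →L[ℂ] H, Y' ∈ S.M ∧ S.D.SupportedIn K (Y' S.vac) ∧
      qT ω S.D T (Y S.vac) - lam * ‖(star Y * Y) S.vac‖ ^ 2
          - (mu + lam * (2 + 4 * Real.exp β) * ‖x S.vac‖ ^ 2) * ‖Y S.vac‖ ^ 2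
          + (qT ω S.D T (x S.vac) - lam * ‖(star x * x) S.vac‖ ^ 2 - mu * ‖x S.vac‖ ^ 2) - ε
        ≤ qT ω S.D T (Y' S.vac) - lam * ‖(star Y' * Y') S.vac‖ ^ 2 - mu * ‖Y' S.vac‖ ^ 2 := by
  -- the three matrix coefficient functions
  set f₁ : ℝ → ℝ := fun t => (⟪(star Y * Y) S.vac, S.flow t (star x * x) S.vac⟫_ℂ).re with hf₁
  set f₂ : ℝ → ℝ := fun t => (⟪x S.vac, S.flow (-t) (Y * star Y) (x S.vac)⟫_ℂ).re with hf₂
  set f₃ : ℝ → ℝ := fun t => (⟪Y S.vac, S.flow t (x * star x) (Y S.vac)⟫_ℂ).re with hf₃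
  have hbc₁ : BC f₁ := bc_flow_re S _ _ _
  have hbc₂ : BC f₂ := (bc_flow_re S (Y * star Y) (x S.vac) (x S.vac)).comp_neg
  have hbc₃ : BC f₃ := bc_flow_re S _ _ _
  have hxs' : star x ∈ S.M := star_mem hx
  have hYs' : star Y ∈ S.M := star_mem hY
  have hm₁ : ultraMean ω f₁ = ‖x S.vac‖ ^ 2 * ‖Y S.vac‖ ^ 2 := by
    rw [hf₁, mean_flow S herg ω hω (mul_mem hxs' hx), gs_inner_star_mul_self,
      gs_inner_star_mul_self_left, ← Complex.ofReal_mul, Complex.ofReal_re]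
  have hm₂ : ultraMean ω f₂ = ‖star Y S.vac‖ ^ 2 * ‖x S.vac‖ ^ 2 := by
    rw [hf₂, mean_flow_neg S herg ω hω (mul_mem hY hYs'), gs_inner_mul_star_self,
      gs_inner_self, ← Complex.ofReal_mul, Complex.ofReal_re]
  have hm₃ : ultraMean ω f₃ = ‖star x S.vac‖ ^ 2 * ‖Y S.vac‖ ^ 2 := by
    rw [hf₃, mean_flow S herg ω hω (mul_mem hx hxs'), gs_inner_mul_star_self,
      gs_inner_self, ← Complex.ofReal_mul, Complex.ofReal_re]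
  have hk₁ := kms_bound S hY hK hYs
  have hk₂ := kms_bound S hx hK hxs
  -- the total correction
  set G : ℝ → ℝ := fun t => 2 * f₁ t + (2 * f₂ t + 2 * f₃ t) with hG
  have hbcG : BC G := (hbc₁.const_mul 2).add ((hbc₂.const_mul 2).add (hbc₃.const_mul 2))
  have hmG : ultraMean ω G = 2 * ultraMean ω f₁ + (2 * ultraMean ω f₂ + 2 * ultraMean ω f₃) := by
    rw [hG, ultraMean_add ω (hbc₁.const_mul 2) ((hbc₂.const_mul 2).add (hbc₃.const_mul 2)),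
      ultraMean_add ω (hbc₂.const_mul 2) (hbc₃.const_mul 2), ultraMean_const_mul ω 2 hbc₁,
      ultraMean_const_mul ω 2 hbc₂, ultraMean_const_mul ω 2 hbc₃]
  have hmG' : ultraMean ω G ≤ (2 + 4 * Real.exp β) * ‖x S.vac‖ ^ 2 * ‖Y S.vac‖ ^ 2 := by
    rw [hmG, hm₁, hm₂, hm₃]
    have hx0 : 0 ≤ ‖x S.vac‖ ^ 2 := by positivity
    have hY0 : 0 ≤ ‖Y S.vac‖ ^ 2 := by positivity
    have h1 : ‖star Y S.vac‖ ^ 2 * ‖x S.vac‖ ^ 2 ≤ Real.exp β * ‖Y S.vac‖ ^ 2 * ‖x S.vac‖ ^ 2 :=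
      mul_le_mul_of_nonneg_right hk₁ hx0
    have h2 : ‖star x S.vac‖ ^ 2 * ‖Y S.vac‖ ^ 2 ≤ Real.exp β * ‖x S.vac‖ ^ 2 * ‖Y S.vac‖ ^ 2 :=
      mul_le_mul_of_nonneg_right hk₂ hY0
    nlinarith [h1, h2]
  -- choose the time
  have hε' : 0 < ε / (lam + 1) := by positivity
  obtain ⟨t, ht⟩ := exists_ge_ultraMean ω hω hbcG.neg hε'
  rw [ultraMean_neg ω hbcG] at ht
  have hGt : lam * G t ≤ lam * ((2 + 4 * Real.exp β) * ‖x S.vac‖ ^ 2 * ‖Y S.vac‖ ^ 2) + ε := by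
    have h1 : G t ≤ (2 + 4 * Real.exp β) * ‖x S.vac‖ ^ 2 * ‖Y S.vac‖ ^ 2 + ε / (lam + 1) := by
      linarith
    have h2 : lam * (ε / (lam + 1)) ≤ ε := by
      rw [mul_div_assoc', div_le_iff₀ (by positivity)]
      nlinarith
    have h3 := mul_le_mul_of_nonneg_left h1 hlam
    linarith
  set y := S.flow t x with hy
  have hyM : y ∈ S.M := flow_mem_M S t hx
  have hyξ : y S.vac = S.D.wave t (x S.vac) := flow_vac S t x
  -- averages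
  have hq : qT ω S.D T ((Y + y) S.vac) + qT ω S.D T ((Y - y) S.vac)
      = 2 * qT ω S.D T (Y S.vac) + 2 * qT ω S.D T (x S.vac) := by
    rw [add_apply, sub_apply, qT_parallelogram, hyξ,
      qT_wave ω S.D T hω]
  have hb : ‖(Y + y) S.vac‖ ^ 2 + ‖(Y - y) S.vac‖ ^ 2
      = 2 * ‖Y S.vac‖ ^ 2 + 2 * ‖x S.vac‖ ^ 2 := by
    rw [add_apply, sub_apply, gs_parallelogram, hyξ,
      norm_wave_apply]
  have hΦ := gs_pointwise S x Y t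
  rw [← hy] at hΦ
  have hΦ' : ‖(star (Y + y) * (Y + y)) S.vac‖ ^ 2 + ‖(star (Y - y) * (Y - y)) S.vac‖ ^ 2
      ≤ 2 * (‖(star Y * Y) S.vac‖ ^ 2 + ‖(star x * x) S.vac‖ ^ 2 + G t) := by
    have : G t = 2 * f₁ t + (2 * f₂ t + 2 * f₃ t) := rfl
    rw [this]
    simp only [hf₁, hf₂, hf₃]
    linarith
  have hΦ'' := mul_le_mul_of_nonneg_left hΦ' hlam
  -- one of the two signs works
  have hsum : 2 * (qT ω S.D T (Y S.vac) - lam * ‖(star Y * Y) S.vac‖ ^ 2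
          - (mu + lam * (2 + 4 * Real.exp β) * ‖x S.vac‖ ^ 2) * ‖Y S.vac‖ ^ 2
          + (qT ω S.D T (x S.vac) - lam * ‖(star x * x) S.vac‖ ^ 2 - mu * ‖x S.vac‖ ^ 2) - ε)
      ≤ (qT ω S.D T ((Y + y) S.vac) - lam * ‖(star (Y + y) * (Y + y)) S.vac‖ ^ 2
            - mu * ‖(Y + y) S.vac‖ ^ 2)
        + (qT ω S.D T ((Y - y) S.vac) - lam * ‖(star (Y - y) * (Y - y)) S.vac‖ ^ 2
            - mu * ‖(Y - y) S.vac‖ ^ 2) := by
    have hb' : mu * (‖(Y + y) S.vac‖ ^ 2 + ‖(Y - y) S.vac‖ ^ 2)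
        = mu * (2 * ‖Y S.vac‖ ^ 2 + 2 * ‖x S.vac‖ ^ 2) := by rw [hb]
    nlinarith [hq, hb', hΦ'', hGt]
  by_cases hcase : qT ω S.D T (Y S.vac) - lam * ‖(star Y * Y) S.vac‖ ^ 2
          - (mu + lam * (2 + 4 * Real.exp β) * ‖x S.vac‖ ^ 2) * ‖Y S.vac‖ ^ 2
          + (qT ω S.D T (x S.vac) - lam * ‖(star x * x) S.vac‖ ^ 2 - mu * ‖x S.vac‖ ^ 2) - ε
      ≤ qT ω S.D T ((Y + y) S.vac) - lam * ‖(star (Y + y) * (Y + y)) S.vac‖ ^ 2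
            - mu * ‖(Y + y) S.vac‖ ^ 2
  · refine ⟨Y + y, add_mem hY hyM, ?_, hcase⟩
    rw [add_apply, hyξ]
    exact supportedIn_add S.D hYs (supportedIn_wave S.D hxs t)
  · refine ⟨Y - y, sub_mem hY hyM, ?_, ?_⟩
    · rw [sub_apply, hyξ]
      exact supportedIn_sub S.D hYs (supportedIn_wave S.D hxs t)
    · linarith

/-- (P8b helper) Abstract greedy iteration (pure real arithmetic). -/
theorem superposition_iterate {α : Type*} (P : α → Prop) (q Φ b : α → ℝ) (y0 : α) (hP0 : P y0)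
    (hq0 : q y0 = 0) (hΦ0 : Φ y0 = 0) (hb0 : b y0 = 0)
    {q₀ Φx bx C : ℝ} (hq₀ : 0 < q₀) (hbx : 0 < bx) (hC : 2 ≤ C)
    (step : ∀ Y, P Y → ∀ lam mu ε : ℝ, 0 ≤ lam → 0 ≤ mu → 0 < ε →
      ∃ Y', P Y' ∧ q Y - lam * Φ Y - (mu + lam * C * bx) * b Y
          + (q₀ - lam * Φx - mu * bx) - ε ≤ q Y' - lam * Φ Y' - mu * b Y')
    (N : ℕ) (hN : 1 ≤ N) (hNΦ : Φx ≤ N * bx ^ 2) :
    ∃ Y, P Y ∧ (N : ℝ) * q₀ / 4 ≤ q Y - q₀ / (2 * C * bx ^ 2 * N) * Φ Y := by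
  have hNpos : (0 : ℝ) < N := by exact_mod_cast hN
  have hCpos : 0 < C := by linarith
  obtain ⟨lam, hlam⟩ : ∃ lam : ℝ, lam = q₀ / (2 * C * bx ^ 2 * N) := ⟨_, rfl⟩
  have hden : 0 < 2 * C * bx ^ 2 * (N : ℝ) := by positivity
  have hlampos : 0 < lam := by rw [hlam]; exact div_pos hq₀ hden
  have hlamN : lam * ((N : ℝ) * bx ^ 2) = q₀ / (2 * C) := by
    rw [hlam]; field_simp
  have hcbx : bx * (lam * C * bx) * (N : ℝ) = q₀ / 2 := by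
    rw [hlam]; field_simp
  have hlamΦ : lam * Φx ≤ q₀ / 4 := by
    have h1 : lam * Φx ≤ lam * ((N : ℝ) * bx ^ 2) := mul_le_mul_of_nonneg_left hNΦ hlampos.le
    have h3 : q₀ / (2 * C) ≤ q₀ / 4 := by
      apply div_le_div_of_nonneg_left hq₀.le (by norm_num) (by linarith)
    linarith
  have hεpos : 0 < q₀ / 4 := by positivity
  have key : ∀ j : ℕ, j ≤ N → ∃ Y, P Y ∧
      (j : ℝ) * (q₀ - lam * Φx - q₀ / 4)
          - bx * (lam * C * bx) * ((j : ℝ) * N - (j : ℝ) * ((j : ℝ) + 1) / 2)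
        ≤ q Y - lam * Φ Y - lam * C * bx * ((N : ℝ) - j) * b Y := by
    intro j
    induction j with
    | zero =>
      intro _
      exact ⟨y0, hP0, by simp [hq0, hΦ0, hb0]⟩
    | succ j ih =>
      intro hj
      obtain ⟨Y, hPY, hY⟩ := ih (Nat.le_of_succ_le hj)
      have hjN : (j : ℝ) + 1 ≤ N := by exact_mod_cast hj
      have hmu : 0 ≤ lam * C * bx * ((N : ℝ) - ((j : ℝ) + 1)) := by
        have : 0 ≤ lam * C * bx := by positivity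
        exact mul_nonneg this (by linarith)
      obtain ⟨Y', hPY', hY'⟩ := step Y hPY lam (lam * C * bx * ((N : ℝ) - ((j : ℝ) + 1)))
        (q₀ / 4) hlampos.le hmu hεpos
      refine ⟨Y', hPY', ?_⟩
      have h1 : (lam * C * bx * ((N : ℝ) - ((j : ℝ) + 1)) + lam * C * bx) * b Y
          = lam * C * bx * ((N : ℝ) - j) * b Y := by ring
      have h2 : ((j + 1 : ℕ) : ℝ) * (q₀ - lam * Φx - q₀ / 4)
          - bx * (lam * C * bx) * (((j + 1 : ℕ) : ℝ) * N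
            - ((j + 1 : ℕ) : ℝ) * (((j + 1 : ℕ) : ℝ) + 1) / 2)
          = (j : ℝ) * (q₀ - lam * Φx - q₀ / 4)
            - bx * (lam * C * bx) * ((j : ℝ) * N - (j : ℝ) * ((j : ℝ) + 1) / 2)
            + (q₀ - lam * Φx - lam * C * bx * ((N : ℝ) - ((j : ℝ) + 1)) * bx) - q₀ / 4 := by
        push_cast; ring
      have h3 : lam * C * bx * ((N : ℝ) - ((j + 1 : ℕ) : ℝ)) * b Y'
          = lam * C * bx * ((N : ℝ) - ((j : ℝ) + 1)) * b Y' := by push_cast; ring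
      rw [h2, h3]
      rw [h1] at hY'
      linarith
  obtain ⟨Y, hPY, hY⟩ := key N le_rfl
  refine ⟨Y, hPY, ?_⟩
  rw [← hlam]
  have h4 : lam * C * bx * ((N : ℝ) - N) * b Y = 0 := by ring
  have h5 : bx * (lam * C * bx) * ((N : ℝ) * N - (N : ℝ) * ((N : ℝ) + 1) / 2)
      = q₀ / 2 * (((N : ℝ) - 1) / 2) := by
    rw [← hcbx]; ring
  rw [h4, h5] at hY
  nlinarith [hlamΦ, hNpos, hq₀]

/-- (P8b helper) `‖X ξ‖² ≤ ‖X⋆X ξ‖` for the unit vector `ξ`. -/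
theorem superposition_norm_sq_le (X : H →L[ℂ] H) :
    ‖X S.vac‖ ^ 2 ≤ ‖(star X * X) S.vac‖ := by
  have h1 : ⟪X S.vac, X S.vac⟫_ℂ = ⟪S.vac, (star X * X) S.vac⟫_ℂ := by
    rw [mul_apply_eq_comp, ContinuousLinearMap.star_eq_adjoint,
      ContinuousLinearMap.adjoint_inner_right]
  have h2 : ‖X S.vac‖ ^ 2 = ‖⟪X S.vac, X S.vac⟫_ℂ‖ := by
    rw [inner_self_eq_norm_sq_to_K]
    simp
  rw [h2, h1]
  calc ‖⟪S.vac, (star X * X) S.vac⟫_ℂ‖ ≤ ‖S.vac‖ * ‖(star X * X) S.vac‖ := norm_inner_le_norm _ _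
    _ = ‖(star X * X) S.vac‖ := by rw [S.norm_vac, one_mul]

/-- (P8b) The superposition: an element of `M` with the same spectral localisation, comparable
`q`, and fourth moment bounded in terms of `‖x ξ‖`, `q(x ξ)`, `‖T‖` and `β` only. -/
theorem exists_superposition (herg : S.Ergodic) (ω : Ultrafilter ℕ)
    (hω : (ω : Filter ℕ) ≤ Filter.atTop) (T : H →L[ℂ] H) {x : H →L[ℂ] H} (hx : x ∈ S.M)
    {β : ℝ} {K : Set ℝ} (hK : K ⊆ Set.Iic β) (hxs : S.D.SupportedIn K (x S.vac))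
    (hq : 0 < qT ω S.D T (x S.vac)) :
    ∃ X : H →L[ℂ] H, X ∈ S.M ∧ S.D.SupportedIn K (X S.vac) ∧
      qT ω S.D T (x S.vac) / 4 ≤ qT ω S.D T (X S.vac) ∧
      ‖(star X * X) S.vac‖ ≤
        4 * (1 + 2 * Real.exp β) * ‖x S.vac‖ ^ 4 * ‖T‖ ^ 2 / qT ω S.D T (x S.vac) := by
  have hκpos : 0 < Real.exp β := Real.exp_pos β
  have hqle : qT ω S.D T (x S.vac) ≤ ‖T‖ ^ 2 * ‖x S.vac‖ ^ 2 := qT_le ω S.D T hω (x S.vac)
  have hbxpos : 0 < ‖x S.vac‖ ^ 2 := by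
    by_contra h
    have h0 : ‖x S.vac‖ ^ 2 = 0 := le_antisymm (not_lt.mp h) (sq_nonneg _)
    rw [h0, mul_zero] at hqle
    linarith
  have hT2 : 0 ≤ ‖T‖ ^ 2 := sq_nonneg _
  obtain ⟨N, hN1, hNΦ⟩ : ∃ N : ℕ, 1 ≤ N ∧
      ‖(star x * x) S.vac‖ ^ 2 ≤ (N : ℝ) * (‖x S.vac‖ ^ 2) ^ 2 := by
    refine ⟨⌈‖(star x * x) S.vac‖ ^ 2 / (‖x S.vac‖ ^ 2) ^ 2⌉₊ + 1, by omega, ?_⟩
    have h1 : ‖(star x * x) S.vac‖ ^ 2 / (‖x S.vac‖ ^ 2) ^ 2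
        ≤ (⌈‖(star x * x) S.vac‖ ^ 2 / (‖x S.vac‖ ^ 2) ^ 2⌉₊ : ℝ) := Nat.le_ceil _
    have h2 : 0 < (‖x S.vac‖ ^ 2) ^ 2 := by positivity
    rw [div_le_iff₀ h2] at h1
    rw [Nat.cast_add, Nat.cast_one]
    nlinarith
  have hNpos : (0 : ℝ) < N := by exact_mod_cast hN1
  obtain ⟨Y, ⟨hYM, hYs⟩, hY⟩ := superposition_iterate
    (fun Y : H →L[ℂ] H => Y ∈ S.M ∧ S.D.SupportedIn K (Y S.vac))
    (fun Y => qT ω S.D T (Y S.vac)) (fun Y => ‖(star Y * Y) S.vac‖ ^ 2)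
    (fun Y => ‖Y S.vac‖ ^ 2) 0
    ⟨zero_mem _, by simpa using supportedIn_zero S.D K⟩
    (by simp [qT_zero]) (by simp) (by simp)
    (q₀ := qT ω S.D T (x S.vac)) (Φx := ‖(star x * x) S.vac‖ ^ 2) (bx := ‖x S.vac‖ ^ 2)
    (C := 2 + 4 * Real.exp β) hq hbxpos (by linarith)
    (fun Y hPY lam mu ε hlam hmu hε => by
      obtain ⟨Y', hY'M, hY's, hY'⟩ :=
        greedy_step S herg ω hω T hx hPY.1 hK hxs hPY.2 hlam hmu hε
      exact ⟨Y', ⟨hY'M, hY's⟩, hY'⟩)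
    N hN1 hNΦ
  beta_reduce at hY
  -- the normalised element
  obtain ⟨s, hs⟩ : ∃ s : ℝ, s = (Real.sqrt N)⁻¹ := ⟨_, rfl⟩
  have hsqrt : 0 < Real.sqrt N := Real.sqrt_pos.mpr hNpos
  have hspos : 0 < s := by rw [hs]; exact inv_pos.mpr hsqrt
  have hs2 : s ^ 2 = 1 / (N : ℝ) := by
    rw [hs, inv_pow, Real.sq_sqrt hNpos.le, one_div]
  refine ⟨(s : ℂ) • Y, ?_, ?_, ?_, ?_⟩
  · exact S.M.toStarSubalgebra.smul_mem hYM _
  · rw [smul_apply]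
    exact supportedIn_smul S.D _ hYs
  · rw [smul_apply, qT_smul, Complex.norm_real, Real.norm_eq_abs,
      abs_of_pos hspos, hs2]
    have hlam0 : 0 ≤ qT ω S.D T (x S.vac) /
        (2 * (2 + 4 * Real.exp β) * (‖x S.vac‖ ^ 2) ^ 2 * N) * ‖(star Y * Y) S.vac‖ ^ 2 := by
      positivity
    have h1 : (N : ℝ) * qT ω S.D T (x S.vac) / 4 ≤ qT ω S.D T (Y S.vac) := by linarith
    rw [one_div, inv_mul_eq_div, le_div_iff₀ hNpos]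
    linarith
  · -- fourth moment
    have hstar : (star ((s : ℂ) • Y) * ((s : ℂ) • Y)) S.vac
        = ((s ^ 2 : ℝ) : ℂ) • (star Y * Y) S.vac := by
      rw [star_smul, smul_mul_smul_comm, smul_apply]
      congr 1
      simp [sq]
    have hA : ‖(star ((s : ℂ) • Y) * ((s : ℂ) • Y)) S.vac‖
        = ‖(star Y * Y) S.vac‖ / N := by
      rw [hstar, norm_smul, Complex.norm_real, Real.norm_eq_abs, abs_of_nonneg (sq_nonneg s),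
        hs2]
      ring
    have hXsq := superposition_norm_sq_le S ((s : ℂ) • Y)
    have hqX : qT ω S.D T (Y S.vac) = (N : ℝ) * qT ω S.D T (((s : ℂ) • Y) S.vac) := by
      rw [smul_apply, qT_smul, Complex.norm_real, Real.norm_eq_abs,
        abs_of_pos hspos, hs2]
      field_simp
    have hqXle : qT ω S.D T (((s : ℂ) • Y) S.vac) ≤ ‖T‖ ^ 2 * ‖((s : ℂ) • Y) S.vac‖ ^ 2 :=
      qT_le ω S.D T hω _
    rw [hA] at hXsq ⊢
    -- set A := ‖(star Y * Y) S.vac‖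
    obtain ⟨A, hAdef⟩ : ∃ A : ℝ, A = ‖(star Y * Y) S.vac‖ := ⟨_, rfl⟩
    rw [← hAdef] at hXsq hY ⊢
    have hA0 : 0 ≤ A := by rw [hAdef]; exact norm_nonneg _
    obtain ⟨q₀, hq₀⟩ : ∃ q₀ : ℝ, q₀ = qT ω S.D T (x S.vac) := ⟨_, rfl⟩
    obtain ⟨bx, hbx⟩ : ∃ bx : ℝ, bx = ‖x S.vac‖ ^ 2 := ⟨_, rfl⟩
    have hb4 : ‖x S.vac‖ ^ 4 = bx ^ 2 := by rw [hbx]; ring
    rw [← hq₀, ← hbx] at hY
    rw [← hq₀, hb4]
    rw [← hq₀] at hq
    rw [← hbx] at hbxpos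
    -- lam * A^2 ≤ q(Yξ) = N q(Xξ) ≤ N ‖T‖² ‖Xξ‖² ≤ N ‖T‖² A / N = ‖T‖² A
    have hNq0 : 0 ≤ (N : ℝ) * q₀ / 4 := by positivity
    have h1 : q₀ / (2 * (2 + 4 * Real.exp β) * bx ^ 2 * N) * A ^ 2 ≤ ‖T‖ ^ 2 * A := by
      have h2 : qT ω S.D T (Y S.vac) ≤ (N : ℝ) * (‖T‖ ^ 2 * (A / N)) := by
        rw [hqX]
        apply mul_le_mul_of_nonneg_left _ hNpos.le
        exact hqXle.trans (mul_le_mul_of_nonneg_left hXsq hT2)
      have h3 : (N : ℝ) * (‖T‖ ^ 2 * (A / N)) = ‖T‖ ^ 2 * A := by field_simp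
      linarith
    rcases hA0.eq_or_lt with hA0' | hApos
    · rw [← hA0', zero_div]
      positivity
    · have hden : 0 < 2 * (2 + 4 * Real.exp β) * bx ^ 2 * (N : ℝ) := by positivity
      have h4 : q₀ / (2 * (2 + 4 * Real.exp β) * bx ^ 2 * N) * A ≤ ‖T‖ ^ 2 := by
        have : q₀ / (2 * (2 + 4 * Real.exp β) * bx ^ 2 * N) * A ^ 2
            = (q₀ / (2 * (2 + 4 * Real.exp β) * bx ^ 2 * N) * A) * A := by ring
        rw [this] at h1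
        exact le_of_mul_le_mul_right h1 hApos
      rw [div_le_div_iff₀ hNpos hq]
      rw [div_mul_eq_mul_div, div_le_iff₀ hden] at h4
      nlinarith [h4]

end Crest.Agent.Rec
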