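import Crest.Agent.Rec.Defs

/-!
# S0112, piece P3 (pure Mathlib real analysis): an `L¹` kernel whose Fourier transform is the
trapezoid.

Recipe (no `π` needed).  Let `c₀ := ∫ (1 - cos t) / t² dt` (finite, positive).  By scaling,
`∫ (1 - cos (a t)) / t² dt = c₀ * |a|`.  Put `K t := (cos t - cos (2 t)) / (c₀ t²)`.
Then `∫ |K| ≤ 3` and, by product-to-sum,
`∫ K t * cos (t v) dt = (|2 + v| + |2 - v| - |1 + v| - |1 - v|) / 2 = max 0 (min 1 (2 - |v|))`,
while `∫ K t * sin (t v) dt = 0` (odd).  Finally `g t := r * K (r t) * exp (- i s t)`.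

All auxiliary objects live in the namespace `Crest.Agent.Rec.Kernel` (the Fejér-type kernel is
used in its continuous form `sinc (t/2)² / 2`).
-/

set_option autoImplicit false

namespace Crest.Agent.Rec

namespace Kernel

open MeasureTheory Real

noncomputable section

/-- The Fejér-type kernel `(1 - cos t)/t²` in its continuous form `sinc (t/2)² / 2`. -/
def fej (t : ℝ) : ℝ := Real.sinc (t / 2) ^ 2 / 2

lemma fej_continuous : Continuous fej := by
  unfold fej
  exact ((Real.continuous_sinc.comp (continuous_id.div_const 2)).pow 2).div_const 2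

lemma fej_nonneg (t : ℝ) : 0 ≤ fej t := by unfold fej; positivity

lemma fej_zero : fej 0 = 1 / 2 := by simp [fej, Real.sinc_zero]

lemma fej_le_half (t : ℝ) : fej t ≤ 1 / 2 := by
  unfold fej
  have h := Real.abs_sinc_le_one (t / 2)
  have h2 : Real.sinc (t / 2) ^ 2 ≤ 1 := by
    have := sq_abs (Real.sinc (t / 2))
    nlinarith [abs_nonneg (Real.sinc (t / 2))]
  linarith

lemma one_sub_cos_eq (t : ℝ) : 1 - cos t = 2 * sin (t / 2) ^ 2 := by
  have h1 : cos t = cos (t / 2 + t / 2) := by ring_nf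
  rw [h1, Real.cos_add]
  nlinarith [Real.sin_sq_add_cos_sq (t / 2)]

lemma fej_of_ne_zero {t : ℝ} (ht : t ≠ 0) : fej t = (1 - cos t) / t ^ 2 := by
  unfold fej
  rw [Real.sinc_of_ne_zero (by positivity), one_sub_cos_eq]
  field_simp

/-- `t² · fej t = 1 - cos t` for every `t`. -/
lemma sq_mul_fej (t : ℝ) : t ^ 2 * fej t = 1 - cos t := by
  rcases eq_or_ne t 0 with rfl | ht
  · simp
  · rw [fej_of_ne_zero ht]; field_simp

lemma fej_le_bound (t : ℝ) : fej t ≤ 4 * (1 + t ^ 2)⁻¹ := by
  have hpos : (0 : ℝ) < 1 + t ^ 2 := by positivity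
  rw [← div_eq_mul_inv, le_div_iff₀ hpos]
  by_cases h : t ^ 2 ≤ 1
  · nlinarith [fej_le_half t, fej_nonneg t]
  · have h : 1 < t ^ 2 := not_le.mp h
    have h1 := sq_mul_fej t
    nlinarith [Real.neg_one_le_cos t, fej_nonneg t]

lemma fej_integrable : Integrable fej := by
  refine Integrable.mono' (integrable_inv_one_add_sq.const_mul 4)
    fej_continuous.aestronglyMeasurable (Filter.Eventually.of_forall fun t => ?_)
  rw [Real.norm_eq_abs, abs_of_nonneg (fej_nonneg t)]
  exact fej_le_bound t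

/-- The normalising constant `c₀ = ∫ (1 - cos t)/t² dt` (its value `π` is never used). -/
def c0 : ℝ := ∫ t, fej t

lemma c0_pos : 0 < c0 := by
  unfold c0
  rw [integral_pos_iff_support_of_nonneg fej_nonneg fej_integrable]
  have hopen : IsOpen (Function.support fej) := fej_continuous.isOpen_support
  have hne : (Function.support fej).Nonempty := ⟨0, by simp [fej_zero]⟩
  exact hopen.measure_pos volume hne

/-- `∫ a² · fej (a t) dt = |a| · c₀`. -/
lemma integral_sq_mul_fej (a : ℝ) : ∫ t, a ^ 2 * fej (a * t) = |a| * c0 := by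
  rcases eq_or_ne a 0 with rfl | ha
  · simp
  · rw [integral_const_mul, Measure.integral_comp_mul_left fej a, smul_eq_mul, abs_inv]
    unfold c0
    have : a ^ 2 = |a| * |a| := by rw [← sq, sq_abs]
    rw [this]
    have ha' : |a| ≠ 0 := abs_ne_zero.mpr ha
    field_simp

lemma integrable_sq_mul_fej (a : ℝ) : Integrable (fun t => a ^ 2 * fej (a * t)) := by
  rcases eq_or_ne a 0 with rfl | ha
  · simp
  · exact (fej_integrable.comp_mul_left' ha).const_mul _

/-- The de la Vallée-Poussin kernel `(cos t - cos 2t)/t²`, continuous form. -/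
def vp (t : ℝ) : ℝ := 4 * fej (2 * t) - fej t

lemma vp_continuous : Continuous vp := by
  unfold vp
  exact (continuous_const.mul (fej_continuous.comp (continuous_const.mul continuous_id))).sub
    fej_continuous

lemma vp_integrable : Integrable vp := by
  unfold vp
  have h := integrable_sq_mul_fej 2
  norm_num at h
  exact h.sub fej_integrable

lemma abs_vp_le (t : ℝ) : |vp t| ≤ 4 * fej (2 * t) + fej t := by
  unfold vp
  rw [abs_le]
  constructor <;> nlinarith [fej_nonneg t, fej_nonneg (2 * t)]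

lemma integral_abs_vp_le : ∫ t, |vp t| ≤ 3 * c0 := by
  have h2 := integrable_sq_mul_fej 2
  have e2 := integral_sq_mul_fej 2
  norm_num at h2 e2
  calc ∫ t, |vp t| ≤ ∫ t, (4 * fej (2 * t) + fej t) :=
        integral_mono vp_integrable.abs (h2.add fej_integrable) abs_vp_le
    _ = 3 * c0 := by
        rw [integral_add h2 fej_integrable, e2]; unfold c0; ring

/-- product-to-sum: `(1 - cos (a t)) cos (t v)` as a combination of `1 - cos`. -/
lemma key_identity (a v t : ℝ) :
    a ^ 2 * fej (a * t) * cos (t * v) =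
      (a + v) ^ 2 * fej ((a + v) * t) / 2 + (a - v) ^ 2 * fej ((a - v) * t) / 2
        - v ^ 2 * fej (v * t) := by
  rcases eq_or_ne t 0 with rfl | ht
  · simp [fej_zero]; ring
  · have h1 : a ^ 2 * fej (a * t) = (1 - cos (a * t)) / t ^ 2 := by
      have := sq_mul_fej (a * t); field_simp; nlinarith
    have h2 : (a + v) ^ 2 * fej ((a + v) * t) = (1 - cos ((a + v) * t)) / t ^ 2 := by
      have := sq_mul_fej ((a + v) * t); field_simp; nlinarith
    have h3 : (a - v) ^ 2 * fej ((a - v) * t) = (1 - cos ((a - v) * t)) / t ^ 2 := by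
      have := sq_mul_fej ((a - v) * t); field_simp; nlinarith
    have h4 : v ^ 2 * fej (v * t) = (1 - cos (v * t)) / t ^ 2 := by
      have := sq_mul_fej (v * t); field_simp; nlinarith
    rw [h1, h2, h3, h4]
    have e1 : cos ((a + v) * t) = cos (a * t) * cos (t * v) - sin (a * t) * sin (t * v) := by
      rw [← Real.cos_add]; ring_nf
    have e2 : cos ((a - v) * t) = cos (a * t) * cos (t * v) + sin (a * t) * sin (t * v) := by
      rw [← Real.cos_sub]; ring_nf
    have e3 : cos (v * t) = cos (t * v) := by ring_nf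
    rw [e1, e2, e3]
    field_simp
    ring

/-- The trapezoid: `1` on `[-1,1]`, `0` outside `[-2,2]`, linear in between. -/
def trap (v : ℝ) : ℝ := (|2 + v| + |2 - v| - |1 + v| - |1 - v|) / 2

lemma trap_continuous : Continuous trap := by unfold trap; fun_prop

lemma trap_eq_one {v : ℝ} (hv : |v| ≤ 1) : trap v = 1 := by
  unfold trap
  rw [abs_le] at hv
  rw [abs_of_nonneg (by linarith), abs_of_nonneg (by linarith), abs_of_nonneg (by linarith),
    abs_of_nonneg (by linarith)]
  ring

lemma trap_eq_zero {v : ℝ} (hv : 2 ≤ |v|) : trap v = 0 := by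
  unfold trap
  rcases le_abs'.mp hv with h | h
  · rw [abs_of_nonpos (by linarith : 2 + v ≤ 0), abs_of_nonneg (by linarith : 0 ≤ 2 - v),
      abs_of_nonpos (by linarith : 1 + v ≤ 0), abs_of_nonneg (by linarith : 0 ≤ 1 - v)]
    ring
  · rw [abs_of_nonneg (by linarith : 0 ≤ 2 + v), abs_of_nonpos (by linarith : 2 - v ≤ 0),
      abs_of_nonneg (by linarith : 0 ≤ 1 + v), abs_of_nonpos (by linarith : 1 - v ≤ 0)]
    ring

lemma trap_nonneg (v : ℝ) : 0 ≤ trap v := by
  unfold trap
  rcases abs_cases (2 + v) with ⟨h1, _⟩ | ⟨h1, _⟩ <;> rcases abs_cases (2 - v) with ⟨h2, _⟩ | ⟨h2, _⟩ <;>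
  rcases abs_cases (1 + v) with ⟨h3, _⟩ | ⟨h3, _⟩ <;> rcases abs_cases (1 - v) with ⟨h4, _⟩ | ⟨h4, _⟩ <;>
  rw [h1, h2, h3, h4] <;> linarith

lemma trap_le_one (v : ℝ) : trap v ≤ 1 := by
  unfold trap
  rcases abs_cases (2 + v) with ⟨h1, _⟩ | ⟨h1, _⟩ <;> rcases abs_cases (2 - v) with ⟨h2, _⟩ | ⟨h2, _⟩ <;>
  rcases abs_cases (1 + v) with ⟨h3, _⟩ | ⟨h3, _⟩ <;> rcases abs_cases (1 - v) with ⟨h4, _⟩ | ⟨h4, _⟩ <;>
  rw [h1, h2, h3, h4] <;> linarith

lemma abs_trap_le_one (v : ℝ) : |trap v| ≤ 1 := by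
  rw [abs_of_nonneg (trap_nonneg v)]; exact trap_le_one v

/-- cosine transform of the de la Vallée-Poussin kernel. -/
lemma integral_vp_mul_cos (v : ℝ) : ∫ t, vp t * cos (t * v) = c0 * trap v := by
  have hfun : (fun t => vp t * cos (t * v)) = fun t =>
      ((2 + v) ^ 2 * fej ((2 + v) * t) / 2 + (2 - v) ^ 2 * fej ((2 - v) * t) / 2)
        - ((1 + v) ^ 2 * fej ((1 + v) * t) / 2 + (1 - v) ^ 2 * fej ((1 - v) * t) / 2) := by
    funext t
    have k2 := key_identity 2 v t
    have k1 := key_identity 1 v t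
    unfold vp
    norm_num at k2 k1
    linear_combination k2 - k1
  rw [hfun]
  have i1 := (integrable_sq_mul_fej (2 + v)).div_const 2
  have i2 := (integrable_sq_mul_fej (2 - v)).div_const 2
  have i3 := (integrable_sq_mul_fej (1 + v)).div_const 2
  have i4 := (integrable_sq_mul_fej (1 - v)).div_const 2
  have i12 : Integrable (fun t => (2 + v) ^ 2 * fej ((2 + v) * t) / 2
      + (2 - v) ^ 2 * fej ((2 - v) * t) / 2) := i1.add i2
  have i34 : Integrable (fun t => (1 + v) ^ 2 * fej ((1 + v) * t) / 2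
      + (1 - v) ^ 2 * fej ((1 - v) * t) / 2) := i3.add i4
  rw [integral_sub i12 i34, integral_add i1 i2, integral_add i3 i4,
    integral_div, integral_div, integral_div, integral_div,
    integral_sq_mul_fej, integral_sq_mul_fej, integral_sq_mul_fej, integral_sq_mul_fej]
  unfold trap
  ring

lemma vp_neg (t : ℝ) : vp (-t) = vp t := by
  unfold vp fej
  rw [show 2 * -t / 2 = -(2 * t / 2) by ring, show -t / 2 = -(t / 2) by ring, Real.sinc_neg,
    Real.sinc_neg]

/-- sine transform of the (even) kernel vanishes. -/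
lemma integral_vp_mul_sin (v : ℝ) : ∫ t, vp t * sin (t * v) = 0 := by
  have h := integral_neg_eq_self (fun t => vp t * sin (t * v)) volume
  have h2 : (fun t : ℝ => vp (-t) * sin (-t * v)) = fun t => -(vp t * sin (t * v)) := by
    funext t
    rw [vp_neg, show -t * v = -(t * v) by ring, Real.sin_neg]; ring
  simp only [h2, integral_neg] at h
  linarith

lemma vp_mul_cos_integrable (v : ℝ) : Integrable (fun t => vp t * cos (t * v)) := by
  refine Integrable.mono' vp_integrable.abs
    ((vp_continuous.mul (Real.continuous_cos.comp (continuous_id.mul continuous_const))).aestronglyMeasurable)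
    (Filter.Eventually.of_forall fun t => ?_)
  rw [norm_mul, Real.norm_eq_abs, Real.norm_eq_abs]
  calc |vp t| * |cos (t * v)| ≤ |vp t| * 1 :=
        mul_le_mul_of_nonneg_left (Real.abs_cos_le_one _) (abs_nonneg _)
    _ = |vp t| := mul_one _

lemma vp_mul_sin_integrable (v : ℝ) : Integrable (fun t => vp t * sin (t * v)) := by
  refine Integrable.mono' vp_integrable.abs
    ((vp_continuous.mul (Real.continuous_sin.comp (continuous_id.mul continuous_const))).aestronglyMeasurable)
    (Filter.Eventually.of_forall fun t => ?_)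
  rw [norm_mul, Real.norm_eq_abs, Real.norm_eq_abs]
  calc |vp t| * |sin (t * v)| ≤ |vp t| * 1 :=
        mul_le_mul_of_nonneg_left (Real.abs_sin_le_one _) (abs_nonneg _)
    _ = |vp t| := mul_one _

/-- Fourier transform of the kernel, complex form. -/
lemma integral_vp_mul_exp (v : ℝ) :
    ∫ t, ((vp t : ℝ) : ℂ) * Complex.exp (Complex.I * ((t * v : ℝ) : ℂ)) = ((c0 * trap v : ℝ) : ℂ) := by
  have hfun : (fun t : ℝ => ((vp t : ℝ) : ℂ) * Complex.exp (Complex.I * ((t * v : ℝ) : ℂ))) =
      fun t : ℝ => (((vp t * cos (t * v) : ℝ) : ℂ)) + Complex.I * ((vp t * sin (t * v) : ℝ) : ℂ) := by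
    funext t
    rw [mul_comm Complex.I, Complex.exp_mul_I, ← Complex.ofReal_cos, ← Complex.ofReal_sin]
    push_cast
    ring
  have hc : Integrable (fun t : ℝ => ((vp t * cos (t * v) : ℝ) : ℂ)) :=
    (vp_mul_cos_integrable v).ofReal
  have hs : Integrable (fun t : ℝ => ((vp t * sin (t * v) : ℝ) : ℂ)) :=
    (vp_mul_sin_integrable v).ofReal
  have hs' : Integrable (fun t : ℝ => Complex.I * ((vp t * sin (t * v) : ℝ) : ℂ)) :=
    hs.const_mul Complex.I
  rw [hfun, integral_add hc hs', integral_const_mul, integral_complex_ofReal,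
    integral_complex_ofReal, integral_vp_mul_cos, integral_vp_mul_sin]
  simp

/-- The kernel with Fourier transform the trapezoid centred at `s` of scale `r`. -/
def ker (s r : ℝ) (t : ℝ) : ℂ :=
  ((r / c0 * vp (r * t) : ℝ) : ℂ) * Complex.exp (Complex.I * ((t * (-s) : ℝ) : ℂ))

lemma ker_continuous (s r : ℝ) : Continuous (ker s r) := by
  unfold ker
  refine (Complex.continuous_ofReal.comp (continuous_const.mul
    (vp_continuous.comp (continuous_const.mul continuous_id)))).mul ?_
  exact Complex.continuous_exp.comp (continuous_const.mul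
    (Complex.continuous_ofReal.comp (continuous_id.mul continuous_const)))

lemma norm_exp_I_mul_ofReal (x : ℝ) : ‖Complex.exp (Complex.I * (x : ℂ))‖ = 1 := by
  rw [mul_comm]; exact Complex.norm_exp_ofReal_mul_I x

lemma norm_ker (s r : ℝ) (hr : 0 < r) (t : ℝ) : ‖ker s r t‖ = r / c0 * |vp (r * t)| := by
  unfold ker
  rw [norm_mul, norm_exp_I_mul_ofReal, mul_one, Complex.norm_real, Real.norm_eq_abs, abs_mul,
    abs_of_pos (div_pos hr c0_pos)]

lemma integrable_abs_vp_comp (r : ℝ) (hr : 0 < r) :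
    Integrable (fun t => r / c0 * |vp (r * t)|) :=
  ((vp_integrable.abs).comp_mul_left' hr.ne').const_mul _

lemma ker_integrable (s r : ℝ) (hr : 0 < r) : Integrable (ker s r) := by
  refine Integrable.mono' (integrable_abs_vp_comp r hr) (ker_continuous s r).aestronglyMeasurable
    (Filter.Eventually.of_forall fun t => ?_)
  rw [norm_ker s r hr]

lemma integral_norm_ker_le (s r : ℝ) (hr : 0 < r) : ∫ t, ‖ker s r t‖ ≤ 3 := by
  simp_rw [norm_ker s r hr]
  rw [integral_const_mul, Measure.integral_comp_mul_left (fun t => |vp t|) r, smul_eq_mul,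
    abs_inv, abs_of_pos hr]
  have h := integral_abs_vp_le
  have hc := c0_pos
  have h0 : 0 ≤ ∫ t, |vp t| := integral_nonneg fun t => abs_nonneg _
  calc r / c0 * (r⁻¹ * ∫ t, |vp t|) = (∫ t, |vp t|) / c0 := by field_simp
    _ ≤ 3 := by rw [div_le_iff₀ hc]; exact h

/-- Fourier transform of `ker s r`: the trapezoid `trap ((u - s)/r)`. -/
lemma integral_ker_mul_exp (s r : ℝ) (hr : 0 < r) (u : ℝ) :
    ∫ t, ker s r t * Complex.exp (Complex.I * ((t * u : ℝ) : ℂ)) =
      ((trap ((u - s) / r) : ℝ) : ℂ) := by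
  set v : ℝ := (u - s) / r with hv
  have hfun : (fun t : ℝ => ker s r t * Complex.exp (Complex.I * ((t * u : ℝ) : ℂ))) =
      fun t : ℝ => ((r / c0 : ℝ) : ℂ) *
        (fun τ : ℝ => ((vp τ : ℝ) : ℂ) * Complex.exp (Complex.I * ((τ * v : ℝ) : ℂ))) (r * t) := by
    funext t
    unfold ker
    have e : ((r * t * v : ℝ)) = t * (-s) + t * u := by
      rw [hv]; field_simp; ring
    simp only
    rw [e]
    push_cast
    rw [mul_add, Complex.exp_add]
    ring
  rw [hfun, integral_const_mul,
    Measure.integral_comp_mul_left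
      (fun τ : ℝ => ((vp τ : ℝ) : ℂ) * Complex.exp (Complex.I * ((τ * v : ℝ) : ℂ))) r,
    integral_vp_mul_exp, abs_inv, abs_of_pos hr]
  have hc : (c0 : ℂ) ≠ 0 := Complex.ofReal_ne_zero.mpr c0_pos.ne'
  have hr' : (r : ℂ) ≠ 0 := Complex.ofReal_ne_zero.mpr hr.ne'
  rw [Complex.real_smul]
  push_cast
  field_simp

lemma trap_eq (v : ℝ) : trap v = max 0 (min 1 (2 - |v|)) := by
  unfold trap
  rcases le_total v (-2) with h1 | h1
  · rw [abs_of_nonpos (by linarith : 2 + v ≤ 0), abs_of_nonneg (by linarith : 0 ≤ 2 - v),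
      abs_of_nonpos (by linarith : 1 + v ≤ 0), abs_of_nonneg (by linarith : 0 ≤ 1 - v),
      abs_of_nonpos (by linarith : v ≤ 0), min_eq_right (by linarith), max_eq_left (by linarith)]
    ring
  rcases le_total v (-1) with h2 | h2
  · rw [abs_of_nonneg (by linarith : 0 ≤ 2 + v), abs_of_nonneg (by linarith : 0 ≤ 2 - v),
      abs_of_nonpos (by linarith : 1 + v ≤ 0), abs_of_nonneg (by linarith : 0 ≤ 1 - v),
      abs_of_nonpos (by linarith : v ≤ 0), min_eq_right (by linarith), max_eq_right (by linarith)]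
    ring
  rcases le_total v 1 with h3 | h3
  · have hv : |v| ≤ 1 := abs_le.mpr ⟨h2, h3⟩
    rw [abs_of_nonneg (by linarith : 0 ≤ 2 + v), abs_of_nonneg (by linarith : 0 ≤ 2 - v),
      abs_of_nonneg (by linarith : 0 ≤ 1 + v), abs_of_nonneg (by linarith : 0 ≤ 1 - v),
      min_eq_left (by linarith), max_eq_right zero_le_one]
    ring
  rcases le_total v 2 with h4 | h4
  · rw [abs_of_nonneg (by linarith : 0 ≤ 2 + v), abs_of_nonneg (by linarith : 0 ≤ 2 - v),
      abs_of_nonneg (by linarith : 0 ≤ 1 + v), abs_of_nonpos (by linarith : 1 - v ≤ 0),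
      abs_of_nonneg (by linarith : 0 ≤ v), min_eq_right (by linarith), max_eq_right (by linarith)]
    ring
  · rw [abs_of_nonneg (by linarith : 0 ≤ 2 + v), abs_of_nonpos (by linarith : 2 - v ≤ 0),
      abs_of_nonneg (by linarith : 0 ≤ 1 + v), abs_of_nonpos (by linarith : 1 - v ≤ 0),
      abs_of_nonneg (by linarith : 0 ≤ v), min_eq_right (by linarith), max_eq_left (by linarith)]
    ring

lemma trap_eq_trapFun (s : ℝ) {r : ℝ} (hr : 0 < r) (u : ℝ) :
    trap ((u - s) / r) = trapFun s r u := by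
  rw [trap_eq, abs_div, abs_of_pos hr]
  rfl

end

end Kernel

open MeasureTheory

/-- An integrable kernel of `L¹`-norm `≤ 3` whose Fourier transform is `trapFun s r`. -/
theorem exists_kernel (s : ℝ) {r : ℝ} (hr : 0 < r) :
    ∃ g : ℝ → ℂ, Integrable g ∧ (∫ t, ‖g t‖) ≤ 3 ∧
      ∀ u : ℝ, (∫ t, g t * Complex.exp (Complex.I * ((t * u : ℝ) : ℂ))) =
        ((trapFun s r u : ℝ) : ℂ) :=
  ⟨Kernel.ker s r, Kernel.ker_integrable s r hr, Kernel.integral_norm_ker_le s r hr, fun u => by
    rw [Kernel.integral_ker_mul_exp s r hr u, Kernel.trap_eq_trapFun s hr u]⟩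

/-- The kernel can moreover be taken continuous (same kernel as in `exists_kernel`). -/
theorem exists_kernel_continuous (s : ℝ) {r : ℝ} (hr : 0 < r) :
    ∃ g : ℝ → ℂ, Continuous g ∧ Integrable g ∧ (∫ t, ‖g t‖) ≤ 3 ∧
      ∀ u : ℝ, (∫ t, g t * Complex.exp (Complex.I * ((t * u : ℝ) : ℂ))) =
        ((trapFun s r u : ℝ) : ℂ) :=
  ⟨Kernel.ker s r, Kernel.ker_continuous s r, Kernel.ker_integrable s r hr,
    Kernel.integral_norm_ker_le s r hr, fun u => by
    rw [Kernel.integral_ker_mul_exp s r hr u, Kernel.trap_eq_trapFun s hr u]⟩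

end Crest.Agent.Rec
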