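import Crest.Agent.Rec.Defs

/-!
# S0112, piece P2a (standalone backup by helper7): the mean `ultraMean ω` on bounded continuous
functions.

Statements are those of the stubs in `Rec/Mean.lean` with `BC f` unfolded to
`Continuous f ∧ ∃ B, ∀ t, |f t| ≤ B` (so a hypothesis `hf : BC f` can be passed as is).
-/

set_option autoImplicit false

namespace Crest.Agent.Rec.MeanBase

open Crest.OpAlg MeasureTheory Filter
open scoped Topology

/-! ### closure properties of bounded continuous functions -/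

theorem bc_const (c : ℝ) : Continuous (fun _ : ℝ => c) ∧ ∃ B : ℝ, ∀ _t : ℝ, |c| ≤ B :=
  ⟨continuous_const, |c|, fun _ => le_rfl⟩

theorem bc_add {f g : ℝ → ℝ} (hf : Continuous f ∧ ∃ B : ℝ, ∀ t, |f t| ≤ B)
    (hg : Continuous g ∧ ∃ B : ℝ, ∀ t, |g t| ≤ B) :
    Continuous (fun t => f t + g t) ∧ ∃ B : ℝ, ∀ t, |f t + g t| ≤ B := by
  obtain ⟨hfc, B, hB⟩ := hf
  obtain ⟨hgc, B', hB'⟩ := hg
  exact ⟨hfc.add hgc, B + B', fun t => (abs_add_le _ _).trans (add_le_add (hB t) (hB' t))⟩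

theorem bc_neg {f : ℝ → ℝ} (hf : Continuous f ∧ ∃ B : ℝ, ∀ t, |f t| ≤ B) :
    Continuous (fun t => - f t) ∧ ∃ B : ℝ, ∀ t, |(- f t)| ≤ B := by
  obtain ⟨hfc, B, hB⟩ := hf
  exact ⟨hfc.neg, B, fun t => by rw [abs_neg]; exact hB t⟩

theorem bc_sub {f g : ℝ → ℝ} (hf : Continuous f ∧ ∃ B : ℝ, ∀ t, |f t| ≤ B)
    (hg : Continuous g ∧ ∃ B : ℝ, ∀ t, |g t| ≤ B) :
    Continuous (fun t => f t - g t) ∧ ∃ B : ℝ, ∀ t, |f t - g t| ≤ B := by
  obtain ⟨hfc, B, hB⟩ := hf
  obtain ⟨hgc, B', hB'⟩ := hg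
  exact ⟨hfc.sub hgc, B + B', fun t => (abs_sub _ _).trans (add_le_add (hB t) (hB' t))⟩

theorem bc_const_mul {f : ℝ → ℝ} (c : ℝ) (hf : Continuous f ∧ ∃ B : ℝ, ∀ t, |f t| ≤ B) :
    Continuous (fun t => c * f t) ∧ ∃ B : ℝ, ∀ t, |c * f t| ≤ B := by
  obtain ⟨hfc, B, hB⟩ := hf
  exact ⟨continuous_const.mul hfc, |c| * B, fun t => by
    rw [abs_mul]; exact mul_le_mul_of_nonneg_left (hB t) (abs_nonneg c)⟩

theorem bc_comp_add_const {f : ℝ → ℝ} (hf : Continuous f ∧ ∃ B : ℝ, ∀ t, |f t| ≤ B) (r : ℝ) :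
    Continuous (fun t => f (t + r)) ∧ ∃ B : ℝ, ∀ t, |f (t + r)| ≤ B := by
  obtain ⟨hfc, B, hB⟩ := hf
  exact ⟨hfc.comp (continuous_id.add continuous_const), B, fun t => hB (t + r)⟩

theorem bc_comp_neg {f : ℝ → ℝ} (hf : Continuous f ∧ ∃ B : ℝ, ∀ t, |f t| ≤ B) :
    Continuous (fun t => f (-t)) ∧ ∃ B : ℝ, ∀ t, |f (-t)| ≤ B := by
  obtain ⟨hfc, B, hB⟩ := hf
  exact ⟨hfc.comp continuous_neg, B, fun t => hB (-t)⟩

/-! ### window means -/

theorem windowMean_eq (f : ℝ → ℝ) (k : ℕ) :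
    windowMean f k = (2 * (k : ℝ))⁻¹ * ∫ t in Set.Icc (-(k : ℝ)) (k : ℝ), f t := by
  unfold windowMean
  rw [setAverage_eq, Real.volume_real_Icc_of_le (by
    have : (0 : ℝ) ≤ (k : ℝ) := Nat.cast_nonneg k
    linarith), smul_eq_mul]
  congr 2
  ring

theorem integrableOn_window {f : ℝ → ℝ} (hf : Continuous f) (k : ℕ) :
    IntegrableOn f (Set.Icc (-(k : ℝ)) (k : ℝ)) :=
  hf.integrableOn_Icc

theorem windowMean_add {f g : ℝ → ℝ} (hf : Continuous f) (hg : Continuous g) (k : ℕ) :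
    windowMean (fun t => f t + g t) k = windowMean f k + windowMean g k := by
  rw [windowMean_eq, windowMean_eq, windowMean_eq,
    integral_add (integrableOn_window hf k) (integrableOn_window hg k)]
  ring

theorem windowMean_const_mul (c : ℝ) (f : ℝ → ℝ) (k : ℕ) :
    windowMean (fun t => c * f t) k = c * windowMean f k := by
  rw [windowMean_eq, windowMean_eq, integral_const_mul]
  ring

theorem windowMean_neg (f : ℝ → ℝ) (k : ℕ) :
    windowMean (fun t => - f t) k = - windowMean f k := by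
  rw [windowMean_eq, windowMean_eq, integral_neg]
  ring

theorem windowMean_sub {f g : ℝ → ℝ} (hf : Continuous f) (hg : Continuous g) (k : ℕ) :
    windowMean (fun t => f t - g t) k = windowMean f k - windowMean g k := by
  rw [windowMean_eq, windowMean_eq, windowMean_eq,
    integral_sub (integrableOn_window hf k) (integrableOn_window hg k)]
  ring

theorem windowMean_mono {f g : ℝ → ℝ} (hf : Continuous f) (hg : Continuous g)
    (hfg : ∀ t, f t ≤ g t) (k : ℕ) : windowMean f k ≤ windowMean g k := by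
  rw [windowMean_eq, windowMean_eq]
  have h0 : (0 : ℝ) ≤ (2 * (k : ℝ))⁻¹ := by positivity
  exact mul_le_mul_of_nonneg_left
    (integral_mono (integrableOn_window hf k) (integrableOn_window hg k) hfg) h0

theorem windowMean_const (c : ℝ) {k : ℕ} (hk : 1 ≤ k) : windowMean (fun _ : ℝ => c) k = c := by
  have hk' : (1 : ℝ) ≤ (k : ℝ) := by exact_mod_cast hk
  rw [windowMean_eq, setIntegral_const, Real.volume_real_Icc_of_le (by linarith), smul_eq_mul]
  field_simp
  ring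

theorem abs_windowMean_le {f : ℝ → ℝ} (hf : Continuous f) {B : ℝ} (hB : ∀ t, |f t| ≤ B)
    (k : ℕ) : |windowMean f k| ≤ B := by
  have hB0 : 0 ≤ B := (abs_nonneg _).trans (hB 0)
  rcases Nat.eq_zero_or_pos k with rfl | hk
  · rw [windowMean_eq]; simpa using hB0
  · have h1 : windowMean (fun t => -B) k ≤ windowMean f k :=
      windowMean_mono continuous_const hf (fun t => (abs_le.mp (hB t)).1) k
    have h2 : windowMean f k ≤ windowMean (fun t => B) k :=
      windowMean_mono hf continuous_const (fun t => (abs_le.mp (hB t)).2) k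
    rw [windowMean_const _ hk] at h1 h2
    exact abs_le.mpr ⟨h1, h2⟩

/-! ### the mean -/

variable (ω : Ultrafilter ℕ)

/-- For bounded continuous `f` the window averages converge along `ω` to `ultraMean ω f`. -/
theorem tendsto_windowMean {f : ℝ → ℝ} (hf : Continuous f ∧ ∃ B : ℝ, ∀ t, |f t| ≤ B) :
    Tendsto (windowMean f) (ω : Filter ℕ) (𝓝 (ultraMean ω f)) := by
  obtain ⟨hfc, B, hB⟩ := hf
  have hmem : Set.Icc (-B) B ∈ (ω.map (windowMean f)) := by
    rw [Ultrafilter.mem_map]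
    exact Filter.Eventually.of_forall fun k => abs_le.mp (abs_windowMean_le hfc hB k)
  obtain ⟨x, -, hx⟩ := isCompact_Icc.ultrafilter_le_nhds' (ω.map (windowMean f)) hmem
  have hx' : Tendsto (windowMean f) (ω : Filter ℕ) (𝓝 x) := hx
  have : ultraMean ω f = x := hx'.limUnder_eq
  rw [this]
  exact hx'

theorem ultraMean_add {f g : ℝ → ℝ} (hf : Continuous f ∧ ∃ B : ℝ, ∀ t, |f t| ≤ B)
    (hg : Continuous g ∧ ∃ B : ℝ, ∀ t, |g t| ≤ B) :
    ultraMean ω (fun t => f t + g t) = ultraMean ω f + ultraMean ω g := by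
  have h1 := tendsto_windowMean ω (bc_add hf hg)
  have h2 := (tendsto_windowMean ω hf).add (tendsto_windowMean ω hg)
  refine tendsto_nhds_unique h1 (h2.congr fun k => ?_)
  exact (windowMean_add hf.1 hg.1 k).symm

theorem ultraMean_const_mul {f : ℝ → ℝ} (c : ℝ)
    (hf : Continuous f ∧ ∃ B : ℝ, ∀ t, |f t| ≤ B) :
    ultraMean ω (fun t => c * f t) = c * ultraMean ω f := by
  have h1 := tendsto_windowMean ω (bc_const_mul c hf)
  have h2 := (tendsto_windowMean ω hf).const_mul c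
  refine tendsto_nhds_unique h1 (h2.congr fun k => ?_)
  exact (windowMean_const_mul c f k).symm

theorem ultraMean_neg {f : ℝ → ℝ} (hf : Continuous f ∧ ∃ B : ℝ, ∀ t, |f t| ≤ B) :
    ultraMean ω (fun t => - f t) = - ultraMean ω f := by
  have h1 := tendsto_windowMean ω (bc_neg hf)
  have h2 := (tendsto_windowMean ω hf).neg
  refine tendsto_nhds_unique h1 (h2.congr fun k => ?_)
  exact (windowMean_neg f k).symm

theorem ultraMean_sub {f g : ℝ → ℝ} (hf : Continuous f ∧ ∃ B : ℝ, ∀ t, |f t| ≤ B)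
    (hg : Continuous g ∧ ∃ B : ℝ, ∀ t, |g t| ≤ B) :
    ultraMean ω (fun t => f t - g t) = ultraMean ω f - ultraMean ω g := by
  have h1 := tendsto_windowMean ω (bc_sub hf hg)
  have h2 := (tendsto_windowMean ω hf).sub (tendsto_windowMean ω hg)
  refine tendsto_nhds_unique h1 (h2.congr fun k => ?_)
  exact (windowMean_sub hf.1 hg.1 k).symm

/-- Needs `ω` free: the window `[-0, 0]` is a null set. -/
theorem ultraMean_const (hω : (ω : Filter ℕ) ≤ Filter.atTop) (c : ℝ) :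
    ultraMean ω (fun _ : ℝ => c) = c := by
  have h1 := tendsto_windowMean ω (bc_const c)
  have hev : ∀ᶠ k in (ω : Filter ℕ), windowMean (fun _ : ℝ => c) k = c :=
    (Filter.eventually_ge_atTop 1).filter_mono hω |>.mono fun k hk => windowMean_const c hk
  have h2 : Tendsto (windowMean (fun _ : ℝ => c)) (ω : Filter ℕ) (𝓝 c) :=
    tendsto_const_nhds.congr' (hev.mono fun k hk => hk.symm)
  exact tendsto_nhds_unique h1 h2

theorem ultraMean_mono {f g : ℝ → ℝ} (hf : Continuous f ∧ ∃ B : ℝ, ∀ t, |f t| ≤ B)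
    (hg : Continuous g ∧ ∃ B : ℝ, ∀ t, |g t| ≤ B) (hfg : ∀ t, f t ≤ g t) :
    ultraMean ω f ≤ ultraMean ω g :=
  le_of_tendsto_of_tendsto' (tendsto_windowMean ω hf) (tendsto_windowMean ω hg)
    fun k => windowMean_mono hf.1 hg.1 hfg k

theorem ultraMean_nonneg {f : ℝ → ℝ} (hf : Continuous f ∧ ∃ B : ℝ, ∀ t, |f t| ≤ B)
    (h0 : ∀ t, 0 ≤ f t) : 0 ≤ ultraMean ω f := by
  refine ge_of_tendsto' (tendsto_windowMean ω hf) fun k => ?_
  have h := windowMean_mono (f := fun _ => (0 : ℝ)) continuous_const hf.1 h0 k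
  have h' : windowMean (fun _ : ℝ => (0 : ℝ)) k = 0 := by
    rw [windowMean_eq]; simp
  linarith

theorem ultraMean_le_of_le (hω : (ω : Filter ℕ) ≤ Filter.atTop) {f : ℝ → ℝ}
    (hf : Continuous f ∧ ∃ B : ℝ, ∀ t, |f t| ≤ B) {B : ℝ} (hB : ∀ t, f t ≤ B) :
    ultraMean ω f ≤ B := by
  have h := ultraMean_mono ω hf (bc_const B) hB
  rwa [ultraMean_const ω hω] at h

theorem le_ultraMean_of_le (hω : (ω : Filter ℕ) ≤ Filter.atTop) {f : ℝ → ℝ}
    (hf : Continuous f ∧ ∃ B : ℝ, ∀ t, |f t| ≤ B) {B : ℝ} (hB : ∀ t, B ≤ f t) :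
    B ≤ ultraMean ω f := by
  have h := ultraMean_mono ω (bc_const B) hf hB
  rwa [ultraMean_const ω hω] at h

theorem abs_ultraMean_le (hω : (ω : Filter ℕ) ≤ Filter.atTop) {f : ℝ → ℝ}
    (hf : Continuous f ∧ ∃ B : ℝ, ∀ t, |f t| ≤ B) {B : ℝ} (hB : ∀ t, |f t| ≤ B) :
    |ultraMean ω f| ≤ B :=
  abs_le.mpr ⟨le_ultraMean_of_le ω hω hf fun t => (abs_le.mp (hB t)).1,
    ultraMean_le_of_le ω hω hf fun t => (abs_le.mp (hB t)).2⟩

/-- Some value is at least the mean (up to `ε`). -/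
theorem exists_ge_ultraMean (hω : (ω : Filter ℕ) ≤ Filter.atTop) {f : ℝ → ℝ}
    (hf : Continuous f ∧ ∃ B : ℝ, ∀ t, |f t| ≤ B) {ε : ℝ} (hε : 0 < ε) :
    ∃ t, ultraMean ω f - ε ≤ f t := by
  by_contra hcon
  have hcon' : ∀ t, f t ≤ ultraMean ω f - ε := fun t => by
    by_contra h
    exact hcon ⟨t, (not_le.mp h).le⟩
  have := ultraMean_le_of_le ω hω hf hcon'
  linarith

/-- Reflection invariance (exact on every window). -/
theorem ultraMean_reflect (f : ℝ → ℝ) : ultraMean ω (fun t => f (-t)) = ultraMean ω f := by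
  have h : windowMean (fun t => f (-t)) = windowMean f := by
    funext k
    rw [windowMean_eq, windowMean_eq]
    congr 1
    have h1 : ∫ t in Set.Icc (-(k : ℝ)) (k : ℝ), f (-t) =
        ∫ t in Set.Icc (-(k : ℝ)) (k : ℝ), f t := by
      rw [integral_Icc_eq_integral_Ioc, integral_Icc_eq_integral_Ioc,
        ← intervalIntegral.integral_of_le (by
          have : (0 : ℝ) ≤ (k : ℝ) := Nat.cast_nonneg k
          linarith),
        ← intervalIntegral.integral_of_le (by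
          have : (0 : ℝ) ≤ (k : ℝ) := Nat.cast_nonneg k
          linarith),
        intervalIntegral.integral_comp_neg, neg_neg]
    exact h1
  unfold ultraMean
  rw [h]

theorem windowMean_eq_interval (f : ℝ → ℝ) (k : ℕ) :
    windowMean f k = (2 * (k : ℝ))⁻¹ * ∫ t in (-(k : ℝ))..(k : ℝ), f t := by
  rw [windowMean_eq, integral_Icc_eq_integral_Ioc,
    ← intervalIntegral.integral_of_le (by
      have : (0 : ℝ) ≤ (k : ℝ) := Nat.cast_nonneg k
      linarith)]

theorem abs_windowMean_translate_sub_le {f : ℝ → ℝ} (hf : Continuous f) {B : ℝ}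
    (hB : ∀ t, |f t| ≤ B) (r : ℝ) (k : ℕ) :
    |windowMean (fun t => f (t + r)) k - windowMean f k| ≤ B * |r| / (k : ℝ) := by
  have hB0 : 0 ≤ B := (abs_nonneg _).trans (hB 0)
  rcases Nat.eq_zero_or_pos k with rfl | hk
  · rw [windowMean_eq, windowMean_eq]; simp
  have hk' : (0 : ℝ) < (k : ℝ) := by exact_mod_cast hk
  rw [windowMean_eq_interval, windowMean_eq_interval,
    intervalIntegral.integral_comp_add_right (fun t => f t) r]
  have hint : ∀ a b : ℝ, IntervalIntegrable f volume a b := fun a b => hf.intervalIntegrable a b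
  have e1 := intervalIntegral.integral_add_adjacent_intervals
    (hint (-(k : ℝ)) (-(k : ℝ) + r)) (hint (-(k : ℝ) + r) ((k : ℝ) + r))
  have e2 := intervalIntegral.integral_add_adjacent_intervals
    (hint (-(k : ℝ)) (k : ℝ)) (hint (k : ℝ) ((k : ℝ) + r))
  have b1 : |∫ t in (-(k : ℝ))..(-(k : ℝ) + r), f t| ≤ B * |r| := by
    have := intervalIntegral.norm_integral_le_of_norm_le_const
      (a := -(k : ℝ)) (b := -(k : ℝ) + r) (f := f) (C := B) (fun x _ => by
        rw [Real.norm_eq_abs]; exact hB x)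
    rwa [Real.norm_eq_abs, add_sub_cancel_left] at this
  have b2 : |∫ t in (k : ℝ)..((k : ℝ) + r), f t| ≤ B * |r| := by
    have := intervalIntegral.norm_integral_le_of_norm_le_const
      (a := (k : ℝ)) (b := (k : ℝ) + r) (f := f) (C := B) (fun x _ => by
        rw [Real.norm_eq_abs]; exact hB x)
    rwa [Real.norm_eq_abs, add_sub_cancel_left] at this
  have hdiff : (2 * (k : ℝ))⁻¹ * (∫ t in (-(k : ℝ) + r)..((k : ℝ) + r), f t) -
      (2 * (k : ℝ))⁻¹ * (∫ t in (-(k : ℝ))..(k : ℝ), f t) =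
      (2 * (k : ℝ))⁻¹ * ((∫ t in (k : ℝ)..((k : ℝ) + r), f t) -
        ∫ t in (-(k : ℝ))..(-(k : ℝ) + r), f t) := by
    linear_combination (2 * (k : ℝ))⁻¹ * (e1 - e2)
  rw [hdiff, abs_mul, abs_of_pos (by positivity : (0 : ℝ) < (2 * (k : ℝ))⁻¹)]
  have h3 : |(∫ t in (k : ℝ)..((k : ℝ) + r), f t) - ∫ t in (-(k : ℝ))..(-(k : ℝ) + r), f t| ≤
      2 * (B * |r|) := by
    have := abs_sub (∫ t in (k : ℝ)..((k : ℝ) + r), f t) (∫ t in (-(k : ℝ))..(-(k : ℝ) + r), f t)
    linarith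
  calc (2 * (k : ℝ))⁻¹ * |(∫ t in (k : ℝ)..((k : ℝ) + r), f t) -
        ∫ t in (-(k : ℝ))..(-(k : ℝ) + r), f t|
      ≤ (2 * (k : ℝ))⁻¹ * (2 * (B * |r|)) :=
        mul_le_mul_of_nonneg_left h3 (by positivity)
    _ = B * |r| / (k : ℝ) := by field_simp

/-- Translation invariance (`ω` free). -/
theorem ultraMean_translate (hω : (ω : Filter ℕ) ≤ Filter.atTop) {f : ℝ → ℝ}
    (hf : Continuous f ∧ ∃ B : ℝ, ∀ t, |f t| ≤ B) (r : ℝ) :
    ultraMean ω (fun t => f (t + r)) = ultraMean ω f := by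
  obtain ⟨B, hB⟩ := hf.2
  have h1 := tendsto_windowMean ω (bc_comp_add_const hf r)
  have h2 := tendsto_windowMean ω hf
  have h0 : Tendsto (fun k : ℕ => B * |r| / (k : ℝ)) atTop (𝓝 0) :=
    tendsto_const_div_atTop_nhds_zero_nat _
  have hd : Tendsto (fun k : ℕ => windowMean (fun t => f (t + r)) k - windowMean f k)
      atTop (𝓝 0) :=
    squeeze_zero_norm (fun k => by
      rw [Real.norm_eq_abs]; exact abs_windowMean_translate_sub_le hf.1 hB r k) h0
  have hd' := hd.mono_left hω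
  have h3 := h1.sub h2
  have := tendsto_nhds_unique h3 hd'
  linarith

end Crest.Agent.Rec.MeanBase
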