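import Crest.Agent.Rec.Calc
import Crest.Agent.Rec.MeanBase

/-!
# S0112, piece P2: the mean `ultraMean ω` on bounded continuous functions, and the form `qT`
-/

set_option autoImplicit false

namespace Crest.Agent.Rec

open Crest.OpAlg MeasureTheory
open scoped BoundedContinuousFunction InnerProductSpace

/-- Bounded continuous real functions on `ℝ`: the class on which `ultraMean` is used. -/
def BC (f : ℝ → ℝ) : Prop := Continuous f ∧ ∃ B : ℝ, ∀ t, |f t| ≤ B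

theorem BC.const (c : ℝ) : BC (fun _ : ℝ => c) :=
  MeanBase.bc_const c

theorem BC.add {f g : ℝ → ℝ} (hf : BC f) (hg : BC g) : BC (fun t => f t + g t) :=
  MeanBase.bc_add hf hg

theorem BC.sub {f g : ℝ → ℝ} (hf : BC f) (hg : BC g) : BC (fun t => f t - g t) :=
  MeanBase.bc_sub hf hg

theorem BC.neg {f : ℝ → ℝ} (hf : BC f) : BC (fun t => - f t) :=
  MeanBase.bc_neg hf

theorem BC.const_mul {f : ℝ → ℝ} (c : ℝ) (hf : BC f) : BC (fun t => c * f t) :=
  MeanBase.bc_const_mul c hf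

theorem BC.comp_add_const {f : ℝ → ℝ} (hf : BC f) (r : ℝ) : BC (fun t => f (t + r)) :=
  MeanBase.bc_comp_add_const hf r

theorem BC.comp_neg {f : ℝ → ℝ} (hf : BC f) : BC (fun t => f (-t)) :=
  MeanBase.bc_comp_neg hf

/-- Convenient constructor. -/
theorem BC.of_bound {f : ℝ → ℝ} (hc : Continuous f) (B : ℝ) (hB : ∀ t, |f t| ≤ B) : BC f :=
  ⟨hc, B, hB⟩

section mean

variable (ω : Ultrafilter ℕ)

/-- For bounded continuous `f` the window averages converge along `ω` to `ultraMean ω f`. -/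
theorem tendsto_windowMean {f : ℝ → ℝ} (hf : BC f) :
    Filter.Tendsto (windowMean f) (ω : Filter ℕ) (nhds (ultraMean ω f)) :=
  MeanBase.tendsto_windowMean ω hf

theorem ultraMean_add {f g : ℝ → ℝ} (hf : BC f) (hg : BC g) :
    ultraMean ω (fun t => f t + g t) = ultraMean ω f + ultraMean ω g :=
  MeanBase.ultraMean_add ω hf hg

theorem ultraMean_const_mul {f : ℝ → ℝ} (c : ℝ) (hf : BC f) :
    ultraMean ω (fun t => c * f t) = c * ultraMean ω f :=
  MeanBase.ultraMean_const_mul ω c hf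

theorem ultraMean_neg {f : ℝ → ℝ} (hf : BC f) :
    ultraMean ω (fun t => - f t) = - ultraMean ω f :=
  MeanBase.ultraMean_neg ω hf

theorem ultraMean_sub {f g : ℝ → ℝ} (hf : BC f) (hg : BC g) :
    ultraMean ω (fun t => f t - g t) = ultraMean ω f - ultraMean ω g :=
  MeanBase.ultraMean_sub ω hf hg

/-- Needs `ω` free: the window `[-0, 0]` is a null set. -/
theorem ultraMean_const (hω : (ω : Filter ℕ) ≤ Filter.atTop) (c : ℝ) :
    ultraMean ω (fun _ : ℝ => c) = c :=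
  MeanBase.ultraMean_const ω hω c

theorem ultraMean_mono {f g : ℝ → ℝ} (hf : BC f) (hg : BC g) (hfg : ∀ t, f t ≤ g t) :
    ultraMean ω f ≤ ultraMean ω g :=
  MeanBase.ultraMean_mono ω hf hg hfg

theorem ultraMean_nonneg {f : ℝ → ℝ} (hf : BC f) (h0 : ∀ t, 0 ≤ f t) :
    0 ≤ ultraMean ω f :=
  MeanBase.ultraMean_nonneg ω hf h0

theorem ultraMean_le_of_le (hω : (ω : Filter ℕ) ≤ Filter.atTop) {f : ℝ → ℝ} (hf : BC f)
    {B : ℝ} (hB : ∀ t, f t ≤ B) : ultraMean ω f ≤ B :=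
  MeanBase.ultraMean_le_of_le ω hω hf hB

theorem le_ultraMean_of_le (hω : (ω : Filter ℕ) ≤ Filter.atTop) {f : ℝ → ℝ} (hf : BC f)
    {B : ℝ} (hB : ∀ t, B ≤ f t) : B ≤ ultraMean ω f :=
  MeanBase.le_ultraMean_of_le ω hω hf hB

theorem abs_ultraMean_le (hω : (ω : Filter ℕ) ≤ Filter.atTop) {f : ℝ → ℝ} (hf : BC f)
    {B : ℝ} (hB : ∀ t, |f t| ≤ B) : |ultraMean ω f| ≤ B :=
  MeanBase.abs_ultraMean_le ω hω hf hB

/-- Some value is at least the mean (up to `ε`). -/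
theorem exists_ge_ultraMean (hω : (ω : Filter ℕ) ≤ Filter.atTop) {f : ℝ → ℝ} (hf : BC f)
    {ε : ℝ} (hε : 0 < ε) : ∃ t, ultraMean ω f - ε ≤ f t :=
  MeanBase.exists_ge_ultraMean ω hω hf hε

/-- Translation invariance (`ω` free). -/
theorem ultraMean_translate (hω : (ω : Filter ℕ) ≤ Filter.atTop) {f : ℝ → ℝ} (hf : BC f)
    (r : ℝ) : ultraMean ω (fun t => f (t + r)) = ultraMean ω f :=
  MeanBase.ultraMean_translate ω hω hf r

/-- Reflection invariance (exact on every window). -/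
theorem ultraMean_reflect (f : ℝ → ℝ) : ultraMean ω (fun t => f (-t)) = ultraMean ω f :=
  MeanBase.ultraMean_reflect ω f

end mean

/-! ### The quadratic form `qT ω D T y = mean_t ‖T (W t y)‖²` -/

section qT

variable {H : Type*} [NormedAddCommGroup H] [InnerProductSpace ℂ H] [CompleteSpace H]
variable (ω : Ultrafilter ℕ) (D : LineCalculus H) (T : H →L[ℂ] H)

theorem qT_pointwise_le (y : H) (t : ℝ) : ‖T (D.wave t y)‖ ^ 2 ≤ ‖T‖ ^ 2 * ‖y‖ ^ 2 := by
  have h1 : ‖T (D.wave t y)‖ ≤ ‖T‖ * ‖y‖ := by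
    calc ‖T (D.wave t y)‖ ≤ ‖T‖ * ‖D.wave t y‖ := T.le_opNorm _
      _ = ‖T‖ * ‖y‖ := by rw [norm_wave_apply]
  calc ‖T (D.wave t y)‖ ^ 2 ≤ (‖T‖ * ‖y‖) ^ 2 :=
        pow_le_pow_left₀ (norm_nonneg _) h1 2
    _ = ‖T‖ ^ 2 * ‖y‖ ^ 2 := by ring

theorem bc_qT (y : H) : BC (fun t : ℝ => ‖T (D.wave t y)‖ ^ 2) := by
  refine BC.of_bound ?_ (‖T‖ ^ 2 * ‖y‖ ^ 2) ?_
  · exact ((T.continuous.comp (continuous_wave D y)).norm).pow 2
  · intro t
    rw [abs_of_nonneg (sq_nonneg _)]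
    exact qT_pointwise_le D T y t

theorem qT_nonneg (y : H) : 0 ≤ qT ω D T y :=
  ultraMean_nonneg ω (bc_qT D T y) (fun _ => sq_nonneg _)

theorem qT_le (hω : (ω : Filter ℕ) ≤ Filter.atTop) (y : H) :
    qT ω D T y ≤ ‖T‖ ^ 2 * ‖y‖ ^ 2 :=
  ultraMean_le_of_le ω hω (bc_qT D T y) (qT_pointwise_le D T y)

theorem qT_wave (hω : (ω : Filter ℕ) ≤ Filter.atTop) (r : ℝ) (y : H) :
    qT ω D T (D.wave r y) = qT ω D T y := by
  unfold qT
  have h : (fun t : ℝ => ‖T (D.wave t (D.wave r y))‖ ^ 2)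
      = fun t : ℝ => (fun s : ℝ => ‖T (D.wave s y)‖ ^ 2) (t + r) := by
    funext t
    simp only [wave_wave]
  rw [h]
  exact ultraMean_translate ω hω (bc_qT D T y) r

theorem qT_parallelogram (u w : H) :
    qT ω D T (u + w) + qT ω D T (u - w) = 2 * qT ω D T u + 2 * qT ω D T w := by
  unfold qT
  rw [← ultraMean_add ω (bc_qT D T (u + w)) (bc_qT D T (u - w)),
    ← ultraMean_const_mul ω 2 (bc_qT D T u), ← ultraMean_const_mul ω 2 (bc_qT D T w),
    ← ultraMean_add ω ((bc_qT D T u).const_mul 2) ((bc_qT D T w).const_mul 2)]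
  congr 1
  funext t
  have h := parallelogram_law_with_norm ℂ (T (D.wave t u)) (T (D.wave t w))
  simp only [map_add, map_sub]
  nlinarith [h]

theorem qT_add_le (u w : H) : qT ω D T (u + w) ≤ 2 * qT ω D T u + 2 * qT ω D T w := by
  have h := qT_parallelogram ω D T u w
  have h2 := qT_nonneg ω D T (u - w)
  linarith

theorem qT_smul (c : ℂ) (y : H) : qT ω D T (c • y) = ‖c‖ ^ 2 * qT ω D T y := by
  unfold qT
  rw [← ultraMean_const_mul ω (‖c‖ ^ 2) (bc_qT D T y)]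
  congr 1
  funext t
  simp only [map_smul, norm_smul]
  ring

theorem qT_zero : qT ω D T 0 = 0 := by
  have h := qT_smul ω D T 0 (0 : H)
  simpa using h

theorem exists_le_norm_of_qT (hω : (ω : Filter ℕ) ≤ Filter.atTop) (y : H) {ε : ℝ} (hε : 0 < ε) :
    ∃ t : ℝ, qT ω D T y - ε ≤ ‖T (D.wave t y)‖ ^ 2 :=
  exists_ge_ultraMean ω hω (bc_qT D T y) hε

end qT

/-! ### Matrix coefficients of the flow are bounded continuous -/

section coeff

variable {H : Type*} [NormedAddCommGroup H] [InnerProductSpace ℂ H] [CompleteSpace H]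
variable (S : ModularDatum H)

theorem coeff_norm_inner_flow_le (b : H →L[ℂ] H) (u w : H) (t : ℝ) :
    ‖⟪u, S.flow t b w⟫_ℂ‖ ≤ ‖b‖ * ‖u‖ * ‖w‖ := by
  calc ‖⟪u, S.flow t b w⟫_ℂ‖ ≤ ‖u‖ * ‖S.flow t b w‖ := norm_inner_le_norm _ _
    _ ≤ ‖u‖ * (‖S.flow t b‖ * ‖w‖) := by
        gcongr
        exact (S.flow t b).le_opNorm w
    _ ≤ ‖u‖ * (‖b‖ * ‖w‖) := by
        gcongr
        exact norm_flow_le S t b
    _ = ‖b‖ * ‖u‖ * ‖w‖ := by ring

theorem abs_flow_re_le (b : H →L[ℂ] H) (u w : H) (t : ℝ) :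
    |(⟪u, S.flow t b w⟫_ℂ).re| ≤ ‖b‖ * ‖u‖ * ‖w‖ :=
  (Complex.abs_re_le_norm _).trans (coeff_norm_inner_flow_le S b u w t)

theorem abs_flow_im_le (b : H →L[ℂ] H) (u w : H) (t : ℝ) :
    |(⟪u, S.flow t b w⟫_ℂ).im| ≤ ‖b‖ * ‖u‖ * ‖w‖ :=
  (Complex.abs_im_le_norm _).trans (coeff_norm_inner_flow_le S b u w t)

theorem coeff_continuous_inner_flow (b : H →L[ℂ] H) (u w : H) :
    Continuous fun t : ℝ => ⟪u, S.flow t b w⟫_ℂ :=
  continuous_const.inner (continuous_flow_apply S b w)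

theorem bc_flow_re (b : H →L[ℂ] H) (u w : H) :
    BC (fun t : ℝ => (⟪u, S.flow t b w⟫_ℂ).re) :=
  BC.of_bound (Complex.continuous_re.comp (coeff_continuous_inner_flow S b u w)) _
    (abs_flow_re_le S b u w)

theorem bc_flow_im (b : H →L[ℂ] H) (u w : H) :
    BC (fun t : ℝ => (⟪u, S.flow t b w⟫_ℂ).im) :=
  BC.of_bound (Complex.continuous_im.comp (coeff_continuous_inner_flow S b u w)) _
    (abs_flow_im_le S b u w)

end coeff

end Crest.Agent.Rec
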