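import Crest.Agent.Rec.Calc

/-!
# S0112, piece P4 (first half): `∫ g(t) • W(t) z dt = F(D) z` when `F u = ∫ g(t) e^{itu} dt`

For `z = f₀(D) z'` with `f₀` compactly supported, `W(t) z = (character t * f₀)(D) z'` and
`t ↦ character t * f₀` is continuous in sup norm, so `Ψ := ∫ g(t) • (character t * f₀) dt` exists
in `ℝ →ᵇ ℂ`; point evaluations are continuous linear, so `Ψ = F * f₀`; and `f ↦ f(D) z'` is
continuous linear, so `∫ g(t) W(t) z dt = Ψ(D) z' = F(D) z`.  Such `z` are dense and both sides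
are Lipschitz in `z`.
-/

set_option autoImplicit false

namespace Crest.Agent.Rec

open Crest.OpAlg MeasureTheory
open scoped BoundedContinuousFunction InnerProductSpace

variable {H : Type*} [NormedAddCommGroup H] [InnerProductSpace ℂ H] [CompleteSpace H]

section smoothInt

variable (D : LineCalculus H)

/-- `t ↦ g t • W(t) z` is Bochner integrable for integrable `g`. -/
theorem integrable_smul_wave {g : ℝ → ℂ} (hg : Integrable g) (z : H) :
    Integrable (fun t : ℝ => g t • D.wave t z) :=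
  hg.smul_bdd (f := fun t : ℝ => D.wave t z) ‖z‖
    (continuous_wave D z).aestronglyMeasurable
    (Filter.Eventually.of_forall fun t => (norm_wave_apply D t z).le)

/-- `f ↦ f(D) z` as a continuous linear map. -/
noncomputable def smoothInt_applyCLM (z : H) : (ℝ →ᵇ ℂ) →L[ℂ] H :=
  LinearMap.mkContinuous
    { toFun := fun f => D.apply f z
      map_add' := fun f g => by rw [map_add]; rfl
      map_smul' := fun c f => by rw [map_smul]; rfl }
    ‖z‖ (fun f => by rw [mul_comm]; exact norm_apply_apply_le D f z)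

theorem smoothInt_applyCLM_apply (z : H) (f : ℝ →ᵇ ℂ) :
    smoothInt_applyCLM D z f = D.apply f z := rfl

/-- The compactly supported case. -/
theorem smoothInt_compact {g : ℝ → ℂ} (hg : Integrable g) (F : ℝ →ᵇ ℂ)
    (hF : ∀ u : ℝ, (∫ t, g t * Complex.exp (Complex.I * ((t * u : ℝ) : ℂ))) = F u)
    (f₀ : ℝ →ᵇ ℂ) (hf₀ : HasCompactSupport (f₀ : ℝ → ℂ)) (z' : H) :
    (∫ t, g t • D.wave t (D.apply f₀ z')) = D.apply F (D.apply f₀ z') := by
  have hcont : Continuous fun t : ℝ => LineCalculus.character t * f₀ :=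
    continuous_character_mul f₀ hf₀
  have hΦ : Integrable (fun t : ℝ => g t • (LineCalculus.character t * f₀)) := by
    refine hg.smul_bdd (f := fun t : ℝ => LineCalculus.character t * f₀) ‖f₀‖
      hcont.aestronglyMeasurable (Filter.Eventually.of_forall fun t => ?_)
    calc ‖LineCalculus.character t * f₀‖
        ≤ ‖LineCalculus.character t‖ * ‖f₀‖ := norm_mul_le _ _
      _ ≤ 1 * ‖f₀‖ := mul_le_mul_of_nonneg_right (norm_character_le t) (norm_nonneg _)
      _ = ‖f₀‖ := one_mul _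
  have hΨ : (∫ t, g t • (LineCalculus.character t * f₀)) = F * f₀ := by
    ext u
    have h1 := (BoundedContinuousFunction.evalCLM ℂ u).integral_comp_comm hΦ
    rw [BoundedContinuousFunction.evalCLM_apply] at h1
    rw [← h1, BoundedContinuousFunction.mul_apply, ← hF u, ← integral_mul_const]
    refine integral_congr_ae (Filter.Eventually.of_forall fun t => ?_)
    show (g t • (LineCalculus.character t * f₀)) u =
      g t * Complex.exp (Complex.I * ((t * u : ℝ) : ℂ)) * f₀ u
    rw [BoundedContinuousFunction.coe_smul]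
    show g t • (LineCalculus.character t * f₀) u = _
    rw [BoundedContinuousFunction.mul_apply, character_apply, smul_eq_mul, mul_assoc]
  have h2 := (smoothInt_applyCLM D z').integral_comp_comm hΦ
  rw [hΨ, smoothInt_applyCLM_apply, ← apply_apply_mul] at h2
  rw [← h2]
  refine integral_congr_ae (Filter.Eventually.of_forall fun t => ?_)
  show g t • D.wave t (D.apply f₀ z') =
    smoothInt_applyCLM D z' (g t • (LineCalculus.character t * f₀))
  rw [map_smul, smoothInt_applyCLM_apply, ← apply_apply_mul]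
  rfl

/-- The integral is Lipschitz in the vector. -/
theorem smoothInt_lipschitz {g : ℝ → ℂ} (hg : Integrable g) (z₁ z₂ : H) :
    ‖(∫ t, g t • D.wave t z₁) - ∫ t, g t • D.wave t z₂‖ ≤ (∫ t, ‖g t‖) * ‖z₁ - z₂‖ := by
  rw [← integral_sub (integrable_smul_wave D hg z₁) (integrable_smul_wave D hg z₂)]
  calc ‖∫ t, (g t • D.wave t z₁ - g t • D.wave t z₂)‖
      ≤ ∫ t, ‖g t • D.wave t z₁ - g t • D.wave t z₂‖ := norm_integral_le_integral_norm _
    _ = ∫ t, ‖g t‖ * ‖z₁ - z₂‖ := by
        refine integral_congr_ae (Filter.Eventually.of_forall fun t => ?_)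
        show ‖g t • D.wave t z₁ - g t • D.wave t z₂‖ = ‖g t‖ * ‖z₁ - z₂‖
        rw [← smul_sub, ← map_sub, norm_smul, norm_wave_apply]
    _ = (∫ t, ‖g t‖) * ‖z₁ - z₂‖ := integral_mul_const _ _

/-- **Fourier inversion through the calculus**: if `F u = ∫ g(t) e^{itu} dt` then
`∫ g(t) • W(t) z dt = F(D) z`. -/
theorem integral_smul_wave {g : ℝ → ℂ} (hg : Integrable g) (F : ℝ →ᵇ ℂ)
    (hF : ∀ u : ℝ, (∫ t, g t * Complex.exp (Complex.I * ((t * u : ℝ) : ℂ))) = F u) (z : H) :
    (∫ t, g t • D.wave t z) = D.apply F z := by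
  by_contra hne
  have hpos : 0 < ‖(∫ t, g t • D.wave t z) - D.apply F z‖ :=
    norm_pos_iff.mpr (sub_ne_zero.mpr hne)
  have hg0 : 0 ≤ ∫ t, ‖g t‖ := integral_nonneg (fun t => norm_nonneg (g t))
  have hF0 : 0 ≤ ‖F‖ := norm_nonneg F
  have hCpos : 0 < (∫ t, ‖g t‖) + ‖F‖ + 1 := by linarith
  obtain ⟨y, hy, hyz⟩ := Metric.mem_closure_iff.mp (dense_compact_range D z)
    (‖(∫ t, g t • D.wave t z) - D.apply F z‖ / ((∫ t, ‖g t‖) + ‖F‖ + 1)) (div_pos hpos hCpos)
  obtain ⟨f₀, z', hf₀, rfl⟩ := hy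
  rw [dist_eq_norm] at hyz
  have h1 := smoothInt_compact D hg F hF f₀ hf₀ z'
  have h2 := smoothInt_lipschitz D hg z (D.apply f₀ z')
  have h3 := norm_apply_apply_le D F (z - D.apply f₀ z')
  rw [map_sub] at h3
  have h4 : (∫ t, g t • D.wave t z) - D.apply F z =
      ((∫ t, g t • D.wave t z) - ∫ t, g t • D.wave t (D.apply f₀ z')) -
        (D.apply F z - D.apply F (D.apply f₀ z')) := by
    rw [h1]; abel
  have h5 : ‖(∫ t, g t • D.wave t z) - D.apply F z‖ ≤
      (∫ t, ‖g t‖) * ‖z - D.apply f₀ z'‖ + ‖F‖ * ‖z - D.apply f₀ z'‖ := by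
    calc ‖(∫ t, g t • D.wave t z) - D.apply F z‖
        = ‖((∫ t, g t • D.wave t z) - ∫ t, g t • D.wave t (D.apply f₀ z')) -
            (D.apply F z - D.apply F (D.apply f₀ z'))‖ := by rw [← h4]
      _ ≤ ‖(∫ t, g t • D.wave t z) - ∫ t, g t • D.wave t (D.apply f₀ z')‖ +
            ‖D.apply F z - D.apply F (D.apply f₀ z')‖ := norm_sub_le _ _
      _ ≤ (∫ t, ‖g t‖) * ‖z - D.apply f₀ z'‖ + ‖F‖ * ‖z - D.apply f₀ z'‖ := add_le_add h2 h3
  have h6 : ((∫ t, ‖g t‖) + ‖F‖ + 1) * ‖z - D.apply f₀ z'‖ <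
      ‖(∫ t, g t • D.wave t z) - D.apply F z‖ := by
    rw [lt_div_iff₀ hCpos] at hyz
    rw [mul_comm]; exact hyz
  have h7 : 0 ≤ ‖z - D.apply f₀ z'‖ := norm_nonneg _
  nlinarith
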