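import Crest.Agent.Rec.Tomita
import Crest.Agent.Rec.SmoothInt

/-!
# S0112, piece P4 (second half): the smoothing operator `R_g(a) y = ∫ g(t) • σ_t(a) y dt`

`R_g(a)` is a bounded operator of norm `≤ ‖g‖₁ ‖a‖`, it commutes with `M'` (hence lies in
`M'' = M`), and `R_g(a) ξ = ∫ g(t) • W(t) (a ξ) dt = F(D) (a ξ)` when `F` is the Fourier
transform of `g` (`integral_smul_wave`).
-/

set_option autoImplicit false

namespace Crest.Agent.Rec

open Crest.OpAlg MeasureTheory
open scoped BoundedContinuousFunction InnerProductSpace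

variable {H : Type*} [NormedAddCommGroup H] [InnerProductSpace ℂ H] [CompleteSpace H]
variable (S : ModularDatum H)

private theorem smoothOp_bound (a : H →L[ℂ] H) (y : H) (t : ℝ) :
    ‖S.flow t a y‖ ≤ ‖a‖ * ‖y‖ :=
  ((S.flow t a).le_opNorm y).trans
    (mul_le_mul_of_nonneg_right (norm_flow_le S t a) (norm_nonneg y))

private theorem smoothOp_integrable {g : ℝ → ℂ} (hg : Integrable g) (a : H →L[ℂ] H) (y : H) :
    Integrable (fun t : ℝ => g t • S.flow t a y) :=
  hg.smul_bdd (f := fun t : ℝ => S.flow t a y) (‖a‖ * ‖y‖)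
    (continuous_flow_apply S a y).aestronglyMeasurable
    (Filter.Eventually.of_forall fun t => smoothOp_bound S a y t)

/-- The smoothing operator `y ↦ ∫ g(t) • σ_t(a) y dt`. -/
private noncomputable def smoothOp {g : ℝ → ℂ} (hg : Integrable g) (a : H →L[ℂ] H) :
    H →L[ℂ] H :=
  LinearMap.mkContinuous
    { toFun := fun y => ∫ t, g t • S.flow t a y
      map_add' := fun y z => by
        rw [← integral_add (smoothOp_integrable S hg a y) (smoothOp_integrable S hg a z)]
        refine integral_congr_ae (Filter.Eventually.of_forall fun t => ?_)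
        show g t • S.flow t a (y + z) = g t • S.flow t a y + g t • S.flow t a z
        rw [map_add, smul_add]
      map_smul' := fun c y => by
        show (∫ t, g t • S.flow t a (c • y)) = c • ∫ t, g t • S.flow t a y
        rw [← integral_smul]
        refine integral_congr_ae (Filter.Eventually.of_forall fun t => ?_)
        show g t • S.flow t a (c • y) = c • g t • S.flow t a y
        rw [map_smul, smul_comm] }
    ((∫ t, ‖g t‖) * ‖a‖) (fun y => by
      show ‖∫ t, g t • S.flow t a y‖ ≤ (∫ t, ‖g t‖) * ‖a‖ * ‖y‖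
      calc ‖∫ t, g t • S.flow t a y‖
          ≤ ∫ t, ‖g t • S.flow t a y‖ := norm_integral_le_integral_norm _
        _ ≤ ∫ t, ‖g t‖ * (‖a‖ * ‖y‖) := by
            refine integral_mono_of_nonneg (Filter.Eventually.of_forall fun t => norm_nonneg _)
              (hg.norm.mul_const _) (Filter.Eventually.of_forall fun t => ?_)
            show ‖g t • S.flow t a y‖ ≤ ‖g t‖ * (‖a‖ * ‖y‖)
            rw [norm_smul]
            exact mul_le_mul_of_nonneg_left (smoothOp_bound S a y t) (norm_nonneg _)
        _ = (∫ t, ‖g t‖) * ‖a‖ * ‖y‖ := by rw [integral_mul_const, mul_assoc])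

private theorem smoothOp_apply {g : ℝ → ℂ} (hg : Integrable g) (a : H →L[ℂ] H) (y : H) :
    smoothOp S hg a y = ∫ t, g t • S.flow t a y := rfl

private theorem smoothOp_norm_le {g : ℝ → ℂ} (hg : Integrable g) (a : H →L[ℂ] H) :
    ‖smoothOp S hg a‖ ≤ (∫ t, ‖g t‖) * ‖a‖ :=
  LinearMap.mkContinuous_norm_le _
    (mul_nonneg (integral_nonneg fun t => norm_nonneg (g t)) (norm_nonneg a)) _

private theorem smoothOp_mem {g : ℝ → ℂ} (hg : Integrable g) {a : H →L[ℂ] H} (ha : a ∈ S.M) :
    smoothOp S hg a ∈ S.M := by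
  rw [← S.M.commutant_commutant, VonNeumannAlgebra.mem_commutant_iff]
  intro c hc
  rw [VonNeumannAlgebra.mem_commutant_iff] at hc
  ext y
  show c (smoothOp S hg a y) = smoothOp S hg a (c y)
  rw [smoothOp_apply, smoothOp_apply, ← c.integral_comp_comm (smoothOp_integrable S hg a y)]
  refine integral_congr_ae (Filter.Eventually.of_forall fun t => ?_)
  show c (g t • S.flow t a y) = g t • S.flow t a (c y)
  rw [map_smul]
  congr 1
  have h := hc (S.flow t a) (flow_mem_M S t ha)
  have h' := congrArg (fun T : H →L[ℂ] H => T y) h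
  exact h'.symm

/-- (F4) Smoothing with an `L¹` kernel `g` whose Fourier transform is the bounded continuous
function `F`. -/
theorem exists_smooth' {a : H →L[ℂ] H} (ha : a ∈ S.M) {g : ℝ → ℂ} (hg : Integrable g)
    (F : ℝ →ᵇ ℂ)
    (hF : ∀ u : ℝ, (∫ t, g t * Complex.exp (Complex.I * ((t * u : ℝ) : ℂ))) = F u) :
    ∃ b : H →L[ℂ] H, b ∈ S.M ∧ ‖b‖ ≤ (∫ t, ‖g t‖) * ‖a‖ ∧
      b S.vac = S.D.apply F (a S.vac) := by
  refine ⟨smoothOp S hg a, smoothOp_mem S hg ha, smoothOp_norm_le S hg a, ?_⟩
  rw [smoothOp_apply, ← integral_smul_wave S.D hg F hF (a S.vac)]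
  refine integral_congr_ae (Filter.Eventually.of_forall fun t => ?_)
  show g t • S.flow t a S.vac = g t • S.D.wave t (a S.vac)
  rw [flow_vac]

end Crest.Agent.Rec
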