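import Crest.Agent.Rec.Tomita
import Crest.Agent.Rec.Kernel
import Crest.Agent.Rec.SmoothOp

/-!
# S0112, piece P4: smoothing operators `R_g(a) y = ∫ g(t) σ_t(a) y dt`

(F4) For `g ∈ L¹(ℝ)` and `a ∈ M`, `R_g(a) y := ∫ g(t) • σ_t(a) y dt` (Bochner integral in `H`;
the integrand is continuous in `t` by `continuous_flow_apply`, times the integrable `g`) is a
bounded operator with `‖R_g(a)‖ ≤ ‖g‖₁ ‖a‖`; it commutes with every `c ∈ M'`
(`ContinuousLinearMap.integral_comp_comm`, as `σ_t(a) ∈ M`), hence lies in `M'' = M`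
(`VonNeumannAlgebra.commutant_commutant`, `VonNeumannAlgebra.mem_commutant_iff`).
Moreover `R_g(a) ξ = ∫ g(t) W(t) (a ξ) dt` (`flow_vac`), and `∫ g(t) W(t) z dt = F(D) z` whenever
`F u = ∫ g(t) e^{itu} dt`: for `z = f₀(D) z'` with `f₀` compactly supported,
`W(t) z = (character t * f₀)(D) z'`, `t ↦ character t * f₀` is continuous in sup norm
(`continuous_character_mul`), so `Ψ := ∫ g(t) • (character t * f₀) dt` exists in `ℝ →ᵇ ℂ`,
point evaluation is a continuous linear map so `Ψ u = F u * f₀ u`, and `f ↦ f(D) z'` is continuous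
linear, so `∫ g(t) W(t) z dt = Ψ(D) z' = F(D) z`.  Such `z` are dense (`dense_compact_range`) and
both sides are continuous in `z`.
-/

set_option autoImplicit false

namespace Crest.Agent.Rec

open Crest.OpAlg MeasureTheory
open scoped BoundedContinuousFunction InnerProductSpace

variable {H : Type*} [NormedAddCommGroup H] [InnerProductSpace ℂ H] [CompleteSpace H]
variable (S : ModularDatum H)

/-- (F4) Smoothing with an `L¹` kernel `g` whose Fourier transform is the bounded continuous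
function `F`. -/
theorem exists_smooth {a : H →L[ℂ] H} (ha : a ∈ S.M) {g : ℝ → ℂ} (hg : Integrable g)
    (F : ℝ →ᵇ ℂ)
    (hF : ∀ u : ℝ, (∫ t, g t * Complex.exp (Complex.I * ((t * u : ℝ) : ℂ))) = F u) :
    ∃ b : H →L[ℂ] H, b ∈ S.M ∧ ‖b‖ ≤ (∫ t, ‖g t‖) * ‖a‖ ∧
      b S.vac = S.D.apply F (a S.vac) :=
  exists_smooth' S ha hg F hF

/-- Spectral localisation inside `M` at bounded cost: `b ξ = trap_{s,r}(D) (a ξ)`, `‖b‖ ≤ 3‖a‖`. -/
theorem exists_localize {a : H →L[ℂ] H} (ha : a ∈ S.M) (s : ℝ) {r : ℝ} (hr : 0 < r) :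
    ∃ b : H →L[ℂ] H, b ∈ S.M ∧ ‖b‖ ≤ 3 * ‖a‖ ∧
      b S.vac = S.D.apply (trapBCF s r) (a S.vac) := by
  obtain ⟨g, hg, hg3, hgF⟩ := exists_kernel s hr
  obtain ⟨b, hbM, hbn, hbv⟩ := exists_smooth S ha hg (trapBCF s r) (fun u => by
    rw [hgF u, trapBCF_apply])
  exact ⟨b, hbM, hbn.trans (mul_le_mul_of_nonneg_right hg3 (norm_nonneg _)), hbv⟩

end Crest.Agent.Rec
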