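import Crest.Agent.Rec.Defs

/-!
# S0112, piece P7: bounded truncation inside a von Neumann algebra

(F5) For `X ∈ M` and `ε > 0` put `A := 1 + ε • (star X * X)`; `⟪y, A y⟫ = ‖y‖² + ε‖X y‖²`, so `A`
is invertible, and `A⁻¹` commutes with everything `A` commutes with, hence `A⁻¹ ∈ M'' = M`
(`VonNeumannAlgebra.commutant_commutant`, `VonNeumannAlgebra.mem_commutant_iff`).
`v := X * A⁻¹ ∈ M`.  For `y = A z`: `‖y‖² = ‖z‖² + 2ε‖X z‖² + ε²‖X⋆X z‖² ≥ 2ε ‖X z‖²`, i.e.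
`‖v y‖² ≤ ‖y‖² / (2ε)`.  And `(X - v) ξ = X A⁻¹ (A - 1) ξ = ε • v (X⋆X ξ)`, so
`‖(X - v) ξ‖² ≤ ε² ‖v‖² ‖X⋆X ξ‖² ≤ (ε / 2) ‖X⋆X ξ‖²`.
-/

set_option autoImplicit false

namespace Crest.Agent.Rec

open scoped InnerProductSpace

variable {H : Type*} [NormedAddCommGroup H] [InnerProductSpace ℂ H] [CompleteSpace H]

/-- `⟪z, X⋆X z⟫ = ‖X z‖²`. -/
theorem trunc_inner_star_mul (X : H →L[ℂ] H) (z : H) :
    ⟪z, (star X * X) z⟫_ℂ = ((‖X z‖ ^ 2 : ℝ) : ℂ) := by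
  rw [mul_apply_eq_comp, ContinuousLinearMap.star_eq_adjoint,
    ContinuousLinearMap.adjoint_inner_right, inner_self_eq_norm_sq_to_K]
  norm_cast

/-- The key lower bound `2ε ‖X z‖² ≤ ‖(1 + ε X⋆X) z‖²`. -/
theorem trunc_key (X : H →L[ℂ] H) (ε : ℝ) (z : H) :
    2 * ε * ‖X z‖ ^ 2 ≤ ‖((1 : H →L[ℂ] H) + (ε : ℂ) • (star X * X)) z‖ ^ 2 := by
  have h1 : ((1 : H →L[ℂ] H) + (ε : ℂ) • (star X * X)) z = z + (ε : ℂ) • (star X * X) z := by
    simp
  rw [h1, norm_add_sq (𝕜 := ℂ), inner_smul_right, trunc_inner_star_mul, ← Complex.ofReal_mul]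
  have h2 : (RCLike.re (((ε * ‖X z‖ ^ 2 : ℝ) : ℂ))) = ε * ‖X z‖ ^ 2 := by
    exact Complex.ofReal_re _
  rw [h2]
  have h3 : 0 ≤ ‖z‖ ^ 2 := by positivity
  have h4 : 0 ≤ ‖(ε : ℂ) • (star X * X) z‖ ^ 2 := by positivity
  linarith

/-- `1 + ε X⋆X` is invertible. -/
theorem trunc_isUnit (X : H →L[ℂ] H) {ε : ℝ} (hε : 0 < ε) :
    IsUnit ((1 : H →L[ℂ] H) + (ε : ℂ) • (star X * X)) := by
  refine ContinuousLinearMap.isUnit_of_forall_le_norm_inner_map _ (c := 1) one_pos ?_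
  intro z
  have h1 : ((1 : H →L[ℂ] H) + (ε : ℂ) • (star X * X)) z = z + (ε : ℂ) • (star X * X) z := by
    simp
  have h2 : ⟪z + (ε : ℂ) • (star X * X) z, z⟫_ℂ = ((‖z‖ ^ 2 + ε * ‖X z‖ ^ 2 : ℝ) : ℂ) := by
    rw [inner_add_left, inner_smul_left, inner_self_eq_norm_sq_to_K,
      ← inner_conj_symm, trunc_inner_star_mul]
    simp
  rw [h1, h2, Complex.norm_real, Real.norm_eq_abs]
  have h3 : 0 ≤ ε * ‖X z‖ ^ 2 := by positivity
  have h4 : 0 ≤ ‖z‖ ^ 2 := by positivity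
  rw [abs_of_nonneg (by linarith)]
  simp only [NNReal.coe_one, mul_one]
  linarith

/-- (F5) Bounded truncation. -/
theorem exists_trunc (M : VonNeumannAlgebra H) (ξ : H) {X : H →L[ℂ] H} (hX : X ∈ M)
    {ε : ℝ} (hε : 0 < ε) :
    ∃ v : H →L[ℂ] H, v ∈ M ∧ ‖v‖ ^ 2 ≤ 1 / (2 * ε) ∧
      ‖(X - v) ξ‖ ^ 2 ≤ ε / 2 * ‖(star X * X) ξ‖ ^ 2 := by
  set A : H →L[ℂ] H := (1 : H →L[ℂ] H) + (ε : ℂ) • (star X * X) with hA
  obtain ⟨u, hu⟩ := trunc_isUnit X hε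
  rw [← hA] at hu
  set B : H →L[ℂ] H := ((u⁻¹ : (H →L[ℂ] H)ˣ) : H →L[ℂ] H) with hB
  have hAB : A * B = 1 := by rw [← hu]; exact u.mul_inv
  have hBA : B * A = 1 := by rw [← hu]; exact u.inv_mul
  have hXX : star X * X ∈ M := mul_mem (star_mem hX) hX
  have hAM : A ∈ M := by
    have h1 : (ε : ℂ) • (star X * X) = algebraMap ℂ (H →L[ℂ] H) (ε : ℂ) * (star X * X) := by
      rw [Algebra.smul_def]
    rw [hA, h1]
    exact add_mem (one_mem M) (mul_mem (M.toStarSubalgebra.algebraMap_mem _) hXX)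
  have hBM : B ∈ M := by
    rw [← VonNeumannAlgebra.commutant_commutant M, VonNeumannAlgebra.mem_commutant_iff]
    intro c hc
    have hcA : A * c = c * A := VonNeumannAlgebra.mem_commutant_iff.mp hc A hAM
    calc c * B = B * A * (c * B) := by rw [hBA, one_mul]
      _ = B * (A * c) * B := by simp only [mul_assoc]
      _ = B * (c * A) * B := by rw [hcA]
      _ = B * c * (A * B) := by simp only [mul_assoc]
      _ = B * c := by rw [hAB, mul_one]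
  have hkey : ∀ y : H, ‖(X * B) y‖ ^ 2 ≤ 1 / (2 * ε) * ‖y‖ ^ 2 := by
    intro y
    have h1 := trunc_key X ε (B y)
    rw [← hA] at h1
    have h2 : A (B y) = y := by
      rw [← mul_apply_eq_comp, hAB]; rfl
    rw [h2] at h1
    rw [mul_apply_eq_comp, div_mul_eq_mul_div, one_mul, le_div_iff₀ (by positivity)]
    linarith
  have hnorm : ‖X * B‖ ≤ Real.sqrt (1 / (2 * ε)) := by
    refine ContinuousLinearMap.opNorm_le_bound _ (Real.sqrt_nonneg _) ?_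
    intro y
    have h1 := hkey y
    have h2 : ‖(X * B) y‖ ^ 2 ≤ (Real.sqrt (1 / (2 * ε)) * ‖y‖) ^ 2 := by
      rw [mul_pow, Real.sq_sqrt (by positivity)]
      exact h1
    exact abs_le_of_sq_le_sq' h2 (by positivity) |>.2
  refine ⟨X * B, mul_mem hX hBM, ?_, ?_⟩
  · calc ‖X * B‖ ^ 2 ≤ (Real.sqrt (1 / (2 * ε))) ^ 2 :=
          pow_le_pow_left₀ (norm_nonneg _) hnorm 2
      _ = 1 / (2 * ε) := Real.sq_sqrt (by positivity)
  · have h1 : (X - X * B) ξ = (ε : ℂ) • (X * B) ((star X * X) ξ) := by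
      have h2 : A ξ = ξ + (ε : ℂ) • (star X * X) ξ := by
        rw [hA]; simp
      have h3 : B (A ξ) = ξ := by
        rw [← mul_apply_eq_comp, hBA]; rfl
      have h4 : B ξ + (ε : ℂ) • B ((star X * X) ξ) = ξ := by
        have h3' := h3
        rw [h2, map_add, map_smul] at h3'
        exact h3'
      have h5 : X ξ = X (B ξ) + (ε : ℂ) • X (B ((star X * X) ξ)) := by
        conv_lhs => rw [← h4]
        rw [map_add, map_smul]
      rw [sub_apply, mul_apply_eq_comp, mul_apply_eq_comp, h5]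
      abel
    rw [h1, norm_smul, mul_pow]
    have h2 := hkey ((star X * X) ξ)
    have h3 : ‖(ε : ℂ)‖ ^ 2 = ε ^ 2 := by
      rw [Complex.norm_real, Real.norm_eq_abs, sq_abs]
    rw [h3]
    calc ε ^ 2 * ‖(X * B) ((star X * X) ξ)‖ ^ 2
        ≤ ε ^ 2 * (1 / (2 * ε) * ‖(star X * X) ξ‖ ^ 2) :=
          mul_le_mul_of_nonneg_left h2 (by positivity)
      _ = ε / 2 * ‖(star X * X) ξ‖ ^ 2 := by
          field_simp

end Crest.Agent.Rec
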